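import Mathlib

namespace Vale.Agent.Lib.P335.H15

open Finset Matrix

section core

variable {B 𝒯 : Type*} [Fintype B] [DecidableEq B] [Fintype 𝒯]

/-- Double counting behind Caputo's argument: if every pair of distinct indices lies in at
most one triple, pairs lying in no triple have a nonnegative weight, and the weights of each
triple sum to a nonnegative number, then the total off-diagonal weight is nonnegative. -/
theorem caputo_core (tri : 𝒯 → Finset B) (q : B → B → ℝ)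
    (h2 : ∀ b b', b ≠ b' → (univ.filter (fun T => b ∈ tri T ∧ b' ∈ tri T)).card ≤ 1)
    (h1 : ∀ b b', b ≠ b' → (∀ T, ¬ (b ∈ tri T ∧ b' ∈ tri T)) → 0 ≤ q b b')
    (h3 : ∀ T, 0 ≤ ∑ b ∈ tri T, ∑ b' ∈ (tri T).erase b, q b b') :
    0 ≤ ∑ b, ∑ b' ∈ univ.erase b, q b b' := by
  classical
  have e1 : ∀ T, ∑ b ∈ tri T, ∑ b' ∈ (tri T).erase b, q b b'
      = ∑ b, ∑ b' ∈ univ.erase b, (if b ∈ tri T ∧ b' ∈ tri T then q b b' else 0) := by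
    intro T
    rw [← Finset.sum_subset (Finset.subset_univ (tri T))]
    · apply Finset.sum_congr rfl
      intro b hb
      rw [← Finset.sum_subset (Finset.erase_subset_erase b (Finset.subset_univ (tri T)))]
      · apply Finset.sum_congr rfl
        intro b' hb'
        rw [if_pos ⟨hb, Finset.mem_of_mem_erase hb'⟩]
      · intro b' hb1 hb2
        have hb3 : b' ∉ tri T := fun h => hb2 (Finset.mem_erase.mpr ⟨Finset.ne_of_mem_erase hb1, h⟩)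
        rw [if_neg (fun h => hb3 h.2)]
    · intro b _ hb
      apply Finset.sum_eq_zero
      intro b' _
      rw [if_neg (fun h => hb h.1)]
  have key : ∑ T, ∑ b ∈ tri T, ∑ b' ∈ (tri T).erase b, q b b'
      = ∑ b, ∑ b' ∈ univ.erase b,
          ((univ.filter (fun T => b ∈ tri T ∧ b' ∈ tri T)).card : ℝ) * q b b' := by
    rw [Finset.sum_congr rfl (fun T _ => e1 T), Finset.sum_comm]
    apply Finset.sum_congr rfl
    intro b _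
    rw [Finset.sum_comm]
    apply Finset.sum_congr rfl
    intro b' _
    rw [← Finset.sum_filter, Finset.sum_const, nsmul_eq_mul]
  have hsplit : ∀ b, ∀ b' ∈ univ.erase b,
      ((univ.filter (fun T => b ∈ tri T ∧ b' ∈ tri T)).card : ℝ) * q b b' ≤ q b b' := by
    intro b b' hb'
    have hne : b ≠ b' := (Finset.ne_of_mem_erase hb').symm
    have hle := h2 b b' hne
    rcases Nat.eq_zero_or_pos (univ.filter (fun T => b ∈ tri T ∧ b' ∈ tri T)).card with h0 | hpos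
    · have hno : ∀ T, ¬ (b ∈ tri T ∧ b' ∈ tri T) := by
        intro T hT
        have hmem : T ∈ univ.filter (fun T => b ∈ tri T ∧ b' ∈ tri T) := by simp [hT]
        have := Finset.card_pos.mpr ⟨T, hmem⟩
        omega
      have hq := h1 b b' hne hno
      rw [h0]
      simpa using hq
    · have h1' : (univ.filter (fun T => b ∈ tri T ∧ b' ∈ tri T)).card = 1 := by omega
      rw [h1']
      simp
  calc (0 : ℝ) ≤ ∑ T, ∑ b ∈ tri T, ∑ b' ∈ (tri T).erase b, q b b' :=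
        Finset.sum_nonneg (fun T _ => h3 T)
    _ = ∑ b, ∑ b' ∈ univ.erase b,
          ((univ.filter (fun T => b ∈ tri T ∧ b' ∈ tri T)).card : ℝ) * q b b' := key
    _ ≤ ∑ b, ∑ b' ∈ univ.erase b, q b b' :=
        Finset.sum_le_sum (fun b _ => Finset.sum_le_sum (hsplit b))

end core

section ops

variable {Ω : Type*} [Fintype Ω]

theorem dot_self_nonneg (v : Ω → ℝ) : 0 ≤ v ⬝ᵥ v :=
  Finset.sum_nonneg (fun i _ => mul_self_nonneg (v i))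

theorem dot_self_eq_zero {v : Ω → ℝ} (h : v ⬝ᵥ v = 0) : v = 0 := by
  have h' := (Finset.sum_eq_zero_iff_of_nonneg (fun i _ => mul_self_nonneg (v i))).mp h
  funext i
  exact mul_self_eq_zero.mp (h' i (Finset.mem_univ i))

theorem dot_cs (v w : Ω → ℝ) : (v ⬝ᵥ w) ^ 2 ≤ (v ⬝ᵥ v) * (w ⬝ᵥ w) := by
  have h := Finset.sum_mul_sq_le_sq_mul_sq (Finset.univ : Finset Ω) v w
  have e1 : v ⬝ᵥ v = ∑ i, v i ^ 2 := by
    unfold dotProduct
    exact Finset.sum_congr rfl (fun i _ => (sq (v i)).symm)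
  have e2 : w ⬝ᵥ w = ∑ i, w i ^ 2 := by
    unfold dotProduct
    exact Finset.sum_congr rfl (fun i _ => (sq (w i)).symm)
  rw [e1, e2]
  exact h

theorem dot_mulVec_symm {A : Matrix Ω Ω ℝ} (hA : Aᵀ = A) (v w : Ω → ℝ) :
    v ⬝ᵥ (A *ᵥ w) = (A *ᵥ v) ⬝ᵥ w := by
  calc v ⬝ᵥ (A *ᵥ w) = (v ᵥ* A) ⬝ᵥ w := Matrix.dotProduct_mulVec v A w
    _ = (v ᵥ* Aᵀ) ⬝ᵥ w := by rw [hA]
    _ = (A *ᵥ v) ⬝ᵥ w := by rw [Matrix.vecMul_transpose]

/-- for a symmetric idempotent the quadratic form is the squared norm of the image -/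
theorem proj_quad {D : Matrix Ω Ω ℝ} (hs : Dᵀ = D) (hi : D * D = D) (g : Ω → ℝ) :
    g ⬝ᵥ (D *ᵥ g) = (D *ᵥ g) ⬝ᵥ (D *ᵥ g) := by
  rw [← dot_mulVec_symm hs, Matrix.mulVec_mulVec, hi]

theorem comm_proj_nonneg {D D' : Matrix Ω Ω ℝ} (hs : Dᵀ = D) (hi : D * D = D)
    (hs' : D'ᵀ = D') (hi' : D' * D' = D') (hc : D * D' = D' * D) (g : Ω → ℝ) :
    0 ≤ (D *ᵥ g) ⬝ᵥ (D' *ᵥ g) := by
  have hsP : (D * D')ᵀ = D * D' := by rw [Matrix.transpose_mul, hs, hs', hc]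
  have hiP : (D * D') * (D * D') = D * D' := by
    calc (D * D') * (D * D') = D * (D' * D) * D' := by simp only [Matrix.mul_assoc]
      _ = D * (D * D') * D' := by rw [hc]
      _ = (D * D) * (D' * D') := by simp only [Matrix.mul_assoc]
      _ = D * D' := by rw [hi, hi']
  have e : (D *ᵥ g) ⬝ᵥ (D' *ᵥ g) = g ⬝ᵥ ((D * D') *ᵥ g) := by
    rw [← dot_mulVec_symm hs, Matrix.mulVec_mulVec]
  rw [e, proj_quad hsP hiP]
  exact dot_self_nonneg _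

/-- **Caputo's inequality.**  For symmetric idempotents `D b` such that two of them commute
unless they lie in a common triple, every pair lies in at most one triple, and the sum over
each triple satisfies `A² ≥ A`, the total sum `LL` satisfies `LL² ≥ LL`. -/
theorem sq_ge_self_of_caputo {B 𝒯 : Type*} [Fintype B] [DecidableEq B] [Fintype 𝒯]
    (D : B → Matrix Ω Ω ℝ) (hsymm : ∀ b, (D b)ᵀ = D b) (hidem : ∀ b, D b * D b = D b)
    (tri : 𝒯 → Finset B)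
    (h2 : ∀ b b', b ≠ b' → (univ.filter (fun T => b ∈ tri T ∧ b' ∈ tri T)).card ≤ 1)
    (hcomm : ∀ b b', b ≠ b' → (∀ T, ¬ (b ∈ tri T ∧ b' ∈ tri T)) → D b * D b' = D b' * D b)
    (htri : ∀ T g, g ⬝ᵥ ((∑ b ∈ tri T, D b) *ᵥ g)
      ≤ ((∑ b ∈ tri T, D b) *ᵥ g) ⬝ᵥ ((∑ b ∈ tri T, D b) *ᵥ g)) (g : Ω → ℝ) :
    g ⬝ᵥ ((∑ b, D b) *ᵥ g) ≤ ((∑ b, D b) *ᵥ g) ⬝ᵥ ((∑ b, D b) *ᵥ g) := by
  have hexp : ∀ s : Finset B, ((∑ b ∈ s, D b) *ᵥ g) ⬝ᵥ ((∑ b ∈ s, D b) *ᵥ g)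
      - g ⬝ᵥ ((∑ b ∈ s, D b) *ᵥ g)
        = ∑ b ∈ s, ∑ b' ∈ s.erase b, (D b *ᵥ g) ⬝ᵥ (D b' *ᵥ g) := by
    intro s
    rw [Matrix.sum_mulVec, sum_dotProduct]
    simp only [dotProduct_sum]
    rw [← Finset.sum_sub_distrib]
    apply Finset.sum_congr rfl
    intro b hb
    rw [← Finset.add_sum_erase s _ hb, proj_quad (hsymm b) (hidem b)]
    ring
  have hcore := caputo_core tri (fun b b' => (D b *ᵥ g) ⬝ᵥ (D b' *ᵥ g)) h2
    (fun b b' hne hno => comm_proj_nonneg (hsymm b) (hidem b) (hsymm b') (hidem b')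
      (hcomm b b' hne hno) g)
    (fun T => by
      have := htri T g
      have h' := hexp (tri T)
      linarith)
  have h' := hexp Finset.univ
  linarith

/-- if a symmetric `A` is supported on the range of a symmetric idempotent `Q` and dominates
`Q`, then `A² ≥ A` -/
theorem sq_ge_of_ge_proj {A Q : Matrix Ω Ω ℝ} (hA : Aᵀ = A) (hQs : Qᵀ = Q) (hQi : Q * Q = Q)
    (hAQ : A * Q = A) (hge : ∀ f, f ⬝ᵥ (Q *ᵥ f) ≤ f ⬝ᵥ (A *ᵥ f)) (f : Ω → ℝ) :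
    f ⬝ᵥ (A *ᵥ f) ≤ (A *ᵥ f) ⬝ᵥ (A *ᵥ f) := by
  have hQA : Q * A = A := by
    have := congrArg Matrix.transpose hAQ
    rwa [Matrix.transpose_mul, hQs, hA] at this
  have hAh : A *ᵥ (Q *ᵥ f) = A *ᵥ f := by rw [Matrix.mulVec_mulVec, hAQ]
  have hQh : Q *ᵥ (Q *ᵥ f) = Q *ᵥ f := by rw [Matrix.mulVec_mulVec, hQi]
  have e1 : f ⬝ᵥ (A *ᵥ f) = (Q *ᵥ f) ⬝ᵥ (A *ᵥ (Q *ᵥ f)) := by
    rw [hAh, ← dot_mulVec_symm hQs, Matrix.mulVec_mulVec, hQA]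
  have ha := hge (Q *ᵥ f)
  rw [hQh] at ha
  have hcs := dot_cs (Q *ᵥ f) (A *ᵥ (Q *ᵥ f))
  have hc0 := dot_self_nonneg (A *ᵥ (Q *ᵥ f))
  rw [e1, ← hAh]
  set a := (Q *ᵥ f) ⬝ᵥ (Q *ᵥ f) with ha_def
  set b := (Q *ᵥ f) ⬝ᵥ (A *ᵥ (Q *ᵥ f)) with hb_def
  set c := (A *ᵥ (Q *ᵥ f)) ⬝ᵥ (A *ᵥ (Q *ᵥ f)) with hc_def
  by_cases hb : b ≤ 0
  · linarith
  · push Not at hb
    have h1 : b * b ≤ b * c := by nlinarith
    exact le_of_mul_le_mul_left h1 hb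

/-- a symmetric positive semidefinite injective `M` with `M² ≥ M` satisfies `M ≥ 1` -/
theorem ge_one_of_sq_ge [DecidableEq Ω] {M : Matrix Ω Ω ℝ} (hM : Mᵀ = M)
    (hpsd : ∀ g, 0 ≤ g ⬝ᵥ (M *ᵥ g))
    (hsq : ∀ g, g ⬝ᵥ (M *ᵥ g) ≤ (M *ᵥ g) ⬝ᵥ (M *ᵥ g))
    (hinj : ∀ g, M *ᵥ g = 0 → g = 0) (f : Ω → ℝ) :
    f ⬝ᵥ f ≤ f ⬝ᵥ (M *ᵥ f) := by
  have hinj' : Function.Injective M.mulVec := by
    intro x y hxy
    have : M *ᵥ (x - y) = 0 := by rw [Matrix.mulVec_sub, hxy, sub_self]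
    exact sub_eq_zero.mp (hinj _ this)
  have hsurj : Function.Surjective M.mulVec :=
    Matrix.mulVec_surjective_iff_isUnit.mpr (Matrix.mulVec_injective_iff_isUnit.mp hinj')
  obtain ⟨g, rfl⟩ := hsurj f
  have h12 := hsq g
  have h1 := hpsd g
  have h3 := hpsd (M *ᵥ g)
  have e : g ⬝ᵥ (M *ᵥ (M *ᵥ g)) = (M *ᵥ g) ⬝ᵥ (M *ᵥ g) := dot_mulVec_symm hM g (M *ᵥ g)
  have hquad : ∀ t : ℝ, 0 ≤ ((M *ᵥ g) ⬝ᵥ (M *ᵥ (M *ᵥ g))) * (t * t)
      + (2 * ((M *ᵥ g) ⬝ᵥ (M *ᵥ g))) * t + g ⬝ᵥ (M *ᵥ g) := by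
    intro t
    have := hpsd (g + t • (M *ᵥ g))
    simp only [Matrix.mulVec_add, Matrix.mulVec_smul, add_dotProduct, dotProduct_add,
      smul_dotProduct, dotProduct_smul, smul_eq_mul] at this
    rw [e] at this
    linarith
  have hd := discrim_le_zero hquad
  unfold discrim at hd
  set a1 := g ⬝ᵥ (M *ᵥ g) with ha1
  set a2 := (M *ᵥ g) ⬝ᵥ (M *ᵥ g) with ha2
  set a3 := (M *ᵥ g) ⬝ᵥ (M *ᵥ (M *ᵥ g)) with ha3
  have h2 : 0 ≤ a2 := dot_self_nonneg _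
  by_cases hz : a2 ≤ 0
  · linarith
  · push Not at hz
    have h4 : a2 * a2 ≤ a2 * a3 := by nlinarith
    exact le_of_mul_le_mul_left h4 hz

/-- **Abstract Caputo gap theorem.**  Symmetric idempotents `D b` that commute outside the
triples, with `A_T² ≥ A_T` on each triple, and whose common kernel is the range of the
symmetric idempotent `P`, satisfy `∑ b, D b ≥ 1 - P` as quadratic forms. -/
theorem caputo_gap [DecidableEq Ω] {B 𝒯 : Type*} [Fintype B] [DecidableEq B] [Fintype 𝒯]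
    (D : B → Matrix Ω Ω ℝ) (hsymm : ∀ b, (D b)ᵀ = D b) (hidem : ∀ b, D b * D b = D b)
    (tri : 𝒯 → Finset B)
    (h2 : ∀ b b', b ≠ b' → (univ.filter (fun T => b ∈ tri T ∧ b' ∈ tri T)).card ≤ 1)
    (hcomm : ∀ b b', b ≠ b' → (∀ T, ¬ (b ∈ tri T ∧ b' ∈ tri T)) → D b * D b' = D b' * D b)
    (htri : ∀ T g, g ⬝ᵥ ((∑ b ∈ tri T, D b) *ᵥ g)
      ≤ ((∑ b ∈ tri T, D b) *ᵥ g) ⬝ᵥ ((∑ b ∈ tri T, D b) *ᵥ g))
    (P : Matrix Ω Ω ℝ) (hPs : Pᵀ = P) (hPi : P * P = P) (hDP : ∀ b, D b * P = 0)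
    (hker : ∀ f : Ω → ℝ, (∀ b, D b *ᵥ f = 0) → P *ᵥ f = f) (f : Ω → ℝ) :
    f ⬝ᵥ f - f ⬝ᵥ (P *ᵥ f) ≤ ∑ b, f ⬝ᵥ (D b *ᵥ f) := by
  set LL : Matrix Ω Ω ℝ := ∑ b, D b with hLL
  have hLLs : LLᵀ = LL := by
    rw [hLL, Matrix.transpose_sum]
    exact Finset.sum_congr rfl (fun b _ => hsymm b)
  have hLLP : LL * P = 0 := by
    rw [hLL, Finset.sum_mul]
    exact Finset.sum_eq_zero (fun b _ => hDP b)
  have hquadLL : ∀ g : Ω → ℝ, g ⬝ᵥ (LL *ᵥ g) = ∑ b, (D b *ᵥ g) ⬝ᵥ (D b *ᵥ g) := by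
    intro g
    rw [hLL, Matrix.sum_mulVec, dotProduct_sum]
    exact Finset.sum_congr rfl (fun b _ => proj_quad (hsymm b) (hidem b) g)
  have hMs : (LL + P)ᵀ = LL + P := by rw [Matrix.transpose_add, hLLs, hPs]
  have hquadM : ∀ g : Ω → ℝ, g ⬝ᵥ ((LL + P) *ᵥ g)
      = ∑ b, (D b *ᵥ g) ⬝ᵥ (D b *ᵥ g) + (P *ᵥ g) ⬝ᵥ (P *ᵥ g) := by
    intro g
    rw [Matrix.add_mulVec, dotProduct_add, hquadLL, proj_quad hPs hPi]
  have hpsd : ∀ g : Ω → ℝ, 0 ≤ g ⬝ᵥ ((LL + P) *ᵥ g) := by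
    intro g
    rw [hquadM]
    exact add_nonneg (Finset.sum_nonneg (fun b _ => dot_self_nonneg _)) (dot_self_nonneg _)
  have hcross : ∀ g : Ω → ℝ, (LL *ᵥ g) ⬝ᵥ (P *ᵥ g) = 0 := by
    intro g
    rw [← dot_mulVec_symm hLLs, Matrix.mulVec_mulVec, hLLP, Matrix.zero_mulVec, dotProduct_zero]
  have hsq : ∀ g : Ω → ℝ, g ⬝ᵥ ((LL + P) *ᵥ g)
      ≤ ((LL + P) *ᵥ g) ⬝ᵥ ((LL + P) *ᵥ g) := by
    intro g
    have hc := sq_ge_self_of_caputo D hsymm hidem tri h2 hcomm htri g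
    rw [← hLL] at hc
    have h1 : ((LL + P) *ᵥ g) ⬝ᵥ ((LL + P) *ᵥ g)
        = (LL *ᵥ g) ⬝ᵥ (LL *ᵥ g) + (P *ᵥ g) ⬝ᵥ (P *ᵥ g) := by
      rw [Matrix.add_mulVec, add_dotProduct, dotProduct_add, dotProduct_add, hcross,
        dotProduct_comm (P *ᵥ g) (LL *ᵥ g), hcross]
      ring
    have h2' : g ⬝ᵥ ((LL + P) *ᵥ g) = g ⬝ᵥ (LL *ᵥ g) + (P *ᵥ g) ⬝ᵥ (P *ᵥ g) := by
      rw [Matrix.add_mulVec, dotProduct_add, proj_quad hPs hPi]
    rw [h1, h2']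
    linarith
  have hinj : ∀ g : Ω → ℝ, (LL + P) *ᵥ g = 0 → g = 0 := by
    intro g hg
    have h0 : g ⬝ᵥ ((LL + P) *ᵥ g) = 0 := by rw [hg, dotProduct_zero]
    rw [hquadM] at h0
    have hsum_nonneg : 0 ≤ ∑ b, (D b *ᵥ g) ⬝ᵥ (D b *ᵥ g) :=
      Finset.sum_nonneg (fun b _ => dot_self_nonneg _)
    have hP0 : (P *ᵥ g) ⬝ᵥ (P *ᵥ g) = 0 := by
      have := dot_self_nonneg (P *ᵥ g)
      linarith
    have hS0 : ∑ b, (D b *ᵥ g) ⬝ᵥ (D b *ᵥ g) = 0 := by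
      have := dot_self_nonneg (P *ᵥ g)
      linarith
    have hD0 : ∀ b, D b *ᵥ g = 0 := by
      intro b
      have := (Finset.sum_eq_zero_iff_of_nonneg (fun b _ => dot_self_nonneg (D b *ᵥ g))).mp hS0 b
        (Finset.mem_univ b)
      exact dot_self_eq_zero this
    have hPg := hker g hD0
    rw [← hPg]
    exact dot_self_eq_zero hP0
  have hfin := ge_one_of_sq_ge hMs hpsd hsq hinj f
  rw [Matrix.add_mulVec, dotProduct_add, hLL, Matrix.sum_mulVec, dotProduct_sum] at hfin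
  linarith

end ops

end Vale.Agent.Lib.P335.H15
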