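import Vale.Agent.Lib.P335.Bip.Defs
import Vale.Agent.Lib.P335.H15.Caputo

/-!
# The averaging operators of the table model as matrices
-/

namespace Vale.Agent.Lib.P335.H15

open Finset Matrix
open Classical
open Vale.Agent.Lib.P335.Bip

theorem agreeOff_refl {R C : Type} (W : Finset R) (x : R → Finset C) : AgreeOff W x x :=
  fun _ _ => rfl

theorem agreeOff_symm {R C : Type} {W : Finset R} {x y : R → Finset C} (h : AgreeOff W x y) :
    AgreeOff W y x := fun i hi => (h i hi).symm

theorem agreeOff_trans {R C : Type} {W : Finset R} {x y z : R → Finset C} (h1 : AgreeOff W x y)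
    (h2 : AgreeOff W y z) : AgreeOff W x z := fun i hi => (h1 i hi).trans (h2 i hi)

theorem agreeOff_mono {R C : Type} {W W' : Finset R} (h : W ⊆ W') {x y : R → Finset C}
    (hxy : AgreeOff W x y) : AgreeOff W' x y := fun i hi => hxy i (fun hiW => hi (h hiW))

variable {R C : Type} [Fintype R] [DecidableEq R] [Fintype C] [DecidableEq C]
variable {r : R → ℕ} {c : C → ℕ}

theorem mem_cls {W : Finset R} {x y : Tab r c} : y ∈ cls W x ↔ AgreeOff W x.1 y.1 := by
  simp [cls]

theorem cls_eq_of_agree {W : Finset R} {x y : Tab r c} (h : AgreeOff W x.1 y.1) :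
    cls W x = cls W y := by
  ext z
  rw [mem_cls, mem_cls]
  exact ⟨fun hz => agreeOff_trans (agreeOff_symm h) hz, fun hz => agreeOff_trans h hz⟩

theorem self_mem_cls (W : Finset R) (x : Tab r c) : x ∈ cls W x :=
  mem_cls.mpr (agreeOff_refl W x.1)

theorem cls_card_pos (W : Finset R) (x : Tab r c) : 0 < ((cls W x).card : ℝ) := by
  have : 0 < (cls W x).card := Finset.card_pos.mpr ⟨x, self_mem_cls W x⟩
  exact_mod_cast this

/-- the matrix of the averaging operator `avg W` -/
noncomputable def avgMat (W : Finset R) : Matrix (Tab r c) (Tab r c) ℝ :=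
  fun x y => if AgreeOff W x.1 y.1 then 1 / ((cls W x).card : ℝ) else 0

theorem avgMat_mulVec (W : Finset R) (f : Tab r c → ℝ) : avgMat W *ᵥ f = avg W f := by
  funext x
  show ∑ y, avgMat W x y * f y = (∑ y ∈ cls W x, f y) / ((cls W x).card : ℝ)
  unfold avgMat
  simp only [ite_mul, zero_mul]
  rw [← Finset.sum_filter, Finset.sum_div]
  have hfilter : (univ.filter (fun y : Tab r c => AgreeOff W x.1 y.1)) = cls W x := by
    ext y
    rw [mem_cls]
    simp
  rw [hfilter]
  apply Finset.sum_congr rfl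
  intro y _
  ring

theorem avgMat_transpose (W : Finset R) :
    (avgMat W : Matrix (Tab r c) (Tab r c) ℝ)ᵀ = avgMat W := by
  ext x y
  rw [Matrix.transpose_apply]
  unfold avgMat
  by_cases h : AgreeOff W x.1 y.1
  · rw [if_pos h, if_pos (agreeOff_symm h), cls_eq_of_agree h]
  · rw [if_neg h, if_neg (fun h' => h (agreeOff_symm h'))]

theorem avg_congr_cls (W : Finset R) (f : Tab r c → ℝ) {x y : Tab r c}
    (h : AgreeOff W x.1 y.1) : avg W f x = avg W f y := by
  unfold avg
  rw [cls_eq_of_agree h]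

/-- a function that is constant on the classes is fixed by the averaging operator -/
theorem avg_of_invariant (W : Finset R) (g : Tab r c → ℝ)
    (hg : ∀ x y : Tab r c, AgreeOff W x.1 y.1 → g x = g y) : avg W g = g := by
  funext x
  unfold avg
  have h1 : ∑ y ∈ cls W x, g y = ∑ _y ∈ cls W x, g x :=
    Finset.sum_congr rfl (fun y hy => (hg x y (mem_cls.mp hy)).symm)
  rw [h1, Finset.sum_const, nsmul_eq_mul]
  have := cls_card_pos W x
  field_simp

theorem avg_avg_of_subset {W W' : Finset R} (h : W ⊆ W') (f : Tab r c → ℝ) :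
    avg W (avg W' f) = avg W' f :=
  avg_of_invariant W (avg W' f) (fun _ _ hxy => avg_congr_cls W' f (agreeOff_mono h hxy))

theorem mat_ext_mulVec {α : Type} [Fintype α] [DecidableEq α] {A B : Matrix α α ℝ}
    (h : ∀ f : α → ℝ, A *ᵥ f = B *ᵥ f) : A = B := by
  apply Matrix.toLin'.injective
  apply LinearMap.ext
  intro f
  rw [Matrix.toLin'_apply, Matrix.toLin'_apply]
  exact h f

theorem avgMat_mul_of_subset {W W' : Finset R} (h : W ⊆ W') :
    (avgMat W : Matrix (Tab r c) (Tab r c) ℝ) * avgMat W' = avgMat W' := by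
  apply mat_ext_mulVec
  intro f
  rw [← Matrix.mulVec_mulVec, avgMat_mulVec, avgMat_mulVec, avg_avg_of_subset h]

theorem avgMat_mul_of_subset' {W W' : Finset R} (h : W ⊆ W') :
    (avgMat W' : Matrix (Tab r c) (Tab r c) ℝ) * avgMat W = avgMat W' := by
  have h1 := congrArg Matrix.transpose (avgMat_mul_of_subset (r := r) (c := c) h)
  rwa [Matrix.transpose_mul, avgMat_transpose, avgMat_transpose] at h1

theorem avgMat_idem (W : Finset R) :
    (avgMat W : Matrix (Tab r c) (Tab r c) ℝ) * avgMat W = avgMat W :=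
  avgMat_mul_of_subset (Finset.Subset.refl W)

/-- the complementary projection -/
theorem one_sub_avgMat_transpose (W : Finset R) :
    ((1 : Matrix (Tab r c) (Tab r c) ℝ) - avgMat W)ᵀ = 1 - avgMat W := by
  rw [Matrix.transpose_sub, Matrix.transpose_one, avgMat_transpose]

theorem one_sub_avgMat_idem (W : Finset R) :
    ((1 : Matrix (Tab r c) (Tab r c) ℝ) - avgMat W) * (1 - avgMat W) = 1 - avgMat W := by
  simp only [sub_mul, mul_sub, one_mul, mul_one, avgMat_idem]
  abel

theorem one_sub_avgMat_mul_of_subset {W W' : Finset R} (h : W ⊆ W') :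
    ((1 : Matrix (Tab r c) (Tab r c) ℝ) - avgMat W) * avgMat W' = 0 := by
  rw [sub_mul, one_mul, avgMat_mul_of_subset h, sub_self]

theorem ip_eq_dot (f g : Tab r c → ℝ) : ip f g = f ⬝ᵥ g := rfl

theorem quad_one_sub_avgMat (W : Finset R) (f : Tab r c → ℝ) :
    f ⬝ᵥ ((1 - avgMat W) *ᵥ f) = ip f f - ip f (avg W f) := by
  rw [Matrix.sub_mulVec, Matrix.one_mulVec, dotProduct_sub, avgMat_mulVec]
  rfl

theorem cls_univ (x : Tab r c) : cls (univ : Finset R) x = univ := by
  ext y
  rw [mem_cls]
  simp [AgreeOff]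

theorem avg_univ (f : Tab r c → ℝ) (x : Tab r c) :
    avg (univ : Finset R) f x = (∑ y, f y) / (Fintype.card (Tab r c) : ℝ) := by
  unfold avg
  rw [cls_univ, Finset.card_univ]

end Vale.Agent.Lib.P335.H15
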