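import Vale.Agent.Lib.P335.H15.Caputo

/-!
# Two-element and three-element subsets: the combinatorics behind Caputo's argument
-/

namespace Vale.Agent.Lib.P335.H15

open Finset

section pairs

variable {R : Type} [Fintype R] [DecidableEq R]

theorem union_card_ge_three {b b' : Finset R} (hb : b.card = 2) (hb' : b'.card = 2)
    (hne : b ≠ b') : 3 ≤ (b ∪ b').card := by
  by_contra h
  push Not at h
  have h1 : b ⊆ b ∪ b' := subset_union_left
  have h2 : b' ⊆ b ∪ b' := subset_union_right
  have e1 : b = b ∪ b' := eq_of_subset_of_card_le h1 (by omega)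
  have e2 : b' = b ∪ b' := eq_of_subset_of_card_le h2 (by omega)
  exact hne (e1.trans e2.symm)

theorem eq_union_of_triple {b b' T : Finset R} (hb : b.card = 2) (hb' : b'.card = 2)
    (hne : b ≠ b') (hT : T.card = 3) (h1 : b ⊆ T) (h2 : b' ⊆ T) : T = b ∪ b' := by
  have hsub : b ∪ b' ⊆ T := union_subset h1 h2
  have h3 := union_card_ge_three hb hb' hne
  exact (eq_of_subset_of_card_le hsub (by omega)).symm

theorem union_card_three_of_not_disjoint {b b' : Finset R} (hb : b.card = 2)
    (hb' : b'.card = 2) (hne : b ≠ b') (hnd : ¬ Disjoint b b') : (b ∪ b').card = 3 := by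
  have h3 := union_card_ge_three hb hb' hne
  have hi : 0 < (b ∩ b').card := by
    rw [Finset.card_pos]
    exact Finset.not_disjoint_iff_nonempty_inter.mp hnd
  have := Finset.card_union_add_card_inter b b'
  omega

/-- the pairs inside a triple, as a finset of the subtype of all pairs -/
noncomputable def tri (T : ↥((univ : Finset R).powersetCard 3)) :
    Finset ↥((univ : Finset R).powersetCard 2) :=
  univ.filter (fun b => b.1 ⊆ T.1)

theorem mem_tri (T : ↥((univ : Finset R).powersetCard 3))
    (b : ↥((univ : Finset R).powersetCard 2)) : b ∈ tri T ↔ b.1 ⊆ T.1 := by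
  simp [tri]

theorem card_of_mem2 (b : ↥((univ : Finset R).powersetCard 2)) : b.1.card = 2 :=
  (Finset.mem_powersetCard.mp b.2).2

theorem card_of_mem3 (T : ↥((univ : Finset R).powersetCard 3)) : T.1.card = 3 :=
  (Finset.mem_powersetCard.mp T.2).2

theorem tri_h2 (b b' : ↥((univ : Finset R).powersetCard 2)) (hne : b ≠ b') :
    (univ.filter (fun T : ↥((univ : Finset R).powersetCard 3) =>
      b ∈ tri T ∧ b' ∈ tri T)).card ≤ 1 := by
  rw [Finset.card_le_one]
  intro T hT T' hT'
  rw [Finset.mem_filter] at hT hT'
  have hne' : b.1 ≠ b'.1 := fun h => hne (Subtype.ext h)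
  have e1 := eq_union_of_triple (card_of_mem2 b) (card_of_mem2 b') hne' (card_of_mem3 T)
    ((mem_tri T b).mp hT.2.1) ((mem_tri T b').mp hT.2.2)
  have e2 := eq_union_of_triple (card_of_mem2 b) (card_of_mem2 b') hne' (card_of_mem3 T')
    ((mem_tri T' b).mp hT'.2.1) ((mem_tri T' b').mp hT'.2.2)
  exact Subtype.ext (e1.trans e2.symm)

theorem disjoint_of_no_tri (b b' : ↥((univ : Finset R).powersetCard 2)) (hne : b ≠ b')
    (hno : ∀ T : ↥((univ : Finset R).powersetCard 3), ¬ (b ∈ tri T ∧ b' ∈ tri T)) :
    Disjoint b.1 b'.1 := by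
  by_contra hnd
  have hne' : b.1 ≠ b'.1 := fun h => hne (Subtype.ext h)
  have h3 := union_card_three_of_not_disjoint (card_of_mem2 b) (card_of_mem2 b') hne' hnd
  have hmem : b.1 ∪ b'.1 ∈ (univ : Finset R).powersetCard 3 :=
    Finset.mem_powersetCard.mpr ⟨Finset.subset_univ _, h3⟩
  exact hno ⟨b.1 ∪ b'.1, hmem⟩
    ⟨(mem_tri _ b).mpr subset_union_left, (mem_tri _ b').mpr subset_union_right⟩

theorem sum_pairs {M : Type*} [AddCommMonoid M] (F : Finset R → M) :
    ∑ b : ↥((univ : Finset R).powersetCard 2), F b.1
      = ∑ b ∈ (univ : Finset R).powersetCard 2, F b :=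
  Finset.sum_coe_sort ((univ : Finset R).powersetCard 2) F

theorem sum_tri {M : Type*} [AddCommMonoid M] (T : ↥((univ : Finset R).powersetCard 3))
    (F : Finset R → M) :
    ∑ b ∈ tri T, F b.1 = ∑ b ∈ T.1.powersetCard 2, F b := by
  classical
  unfold tri
  rw [Finset.sum_filter]
  rw [Finset.sum_coe_sort ((univ : Finset R).powersetCard 2)
    (fun b => if b ⊆ T.1 then F b else 0), ← Finset.sum_filter]
  apply Finset.sum_congr _ (fun _ _ => rfl)
  ext b
  simp only [Finset.mem_filter, Finset.mem_powersetCard, Finset.subset_univ, true_and]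
  tauto

/-- **Caputo's double count for pairs.**  A weight on pairs of two-element sets that is
nonnegative on disjoint pairs and whose sum over the pairs inside every three-element set
is at least its diagonal part has the same property on the whole index set. -/
theorem caputo_core_pairs (q : Finset R → Finset R → ℝ)
    (h1 : ∀ b b', b.card = 2 → b'.card = 2 → Disjoint b b' → 0 ≤ q b b')
    (h3 : ∀ T : Finset R, T.card = 3 →
      ∑ b ∈ T.powersetCard 2, q b b
        ≤ ∑ b ∈ T.powersetCard 2, ∑ b' ∈ T.powersetCard 2, q b b') :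
    ∑ b ∈ (univ : Finset R).powersetCard 2, q b b
      ≤ ∑ b ∈ (univ : Finset R).powersetCard 2,
          ∑ b' ∈ (univ : Finset R).powersetCard 2, q b b' := by
  classical
  have hoff : ∀ s : Finset ↥((univ : Finset R).powersetCard 2),
      ∑ b ∈ s, ∑ b' ∈ s.erase b, q b.1 b'.1
        = ∑ b ∈ s, ∑ b' ∈ s, q b.1 b'.1 - ∑ b ∈ s, q b.1 b.1 := by
    intro s
    rw [← Finset.sum_sub_distrib]
    apply Finset.sum_congr rfl
    intro b hb
    rw [← Finset.add_sum_erase s _ hb]
    ring
  have hcore := caputo_core (tri (R := R)) (fun b b' => q b.1 b'.1) tri_h2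
    (fun b b' hne hno => h1 b.1 b'.1 (card_of_mem2 b) (card_of_mem2 b')
      (disjoint_of_no_tri b b' hne hno))
    (fun T => by
      rw [hoff (tri T)]
      have e1 : ∑ b ∈ tri T, ∑ b' ∈ tri T, q b.1 b'.1
          = ∑ b ∈ T.1.powersetCard 2, ∑ b' ∈ T.1.powersetCard 2, q b b' := by
        rw [← sum_tri T (fun b => ∑ b' ∈ T.1.powersetCard 2, q b b')]
        apply Finset.sum_congr rfl
        intro b _
        exact sum_tri T (fun b' => q b.1 b')
      have e2 : ∑ b ∈ tri T, q b.1 b.1 = ∑ b ∈ T.1.powersetCard 2, q b b :=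
        sum_tri T (fun b => q b b)
      rw [e1, e2]
      have := h3 T.1 (card_of_mem3 T)
      linarith)
  rw [hoff Finset.univ] at hcore
  have e1 : ∑ b : ↥((univ : Finset R).powersetCard 2),
      ∑ b' : ↥((univ : Finset R).powersetCard 2), q b.1 b'.1
        = ∑ b ∈ (univ : Finset R).powersetCard 2,
          ∑ b' ∈ (univ : Finset R).powersetCard 2, q b b' := by
    rw [← sum_pairs (fun b => ∑ b' ∈ (univ : Finset R).powersetCard 2, q b b')]
    apply Finset.sum_congr rfl
    intro b _
    exact sum_pairs (fun b' => q b.1 b')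
  have e2 : ∑ b : ↥((univ : Finset R).powersetCard 2), q b.1 b.1
      = ∑ b ∈ (univ : Finset R).powersetCard 2, q b b := sum_pairs (fun b => q b b)
  rw [e1, e2] at hcore
  linarith

/-- the two-element subsets of a three-element set -/
theorem sum_powersetCard_two_triple {M : Type*} [AddCommMonoid M] {i j k : R} (hij : i ≠ j)
    (hik : i ≠ k) (hjk : j ≠ k) (F : Finset R → M) :
    ∑ b ∈ ({i, j, k} : Finset R).powersetCard 2, F b = F {j, k} + F {i, k} + F {i, j} := by
  classical
  have hset : ({i, j, k} : Finset R).powersetCard 2 = {{j, k}, {i, k}, {i, j}} := by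
    ext b
    simp only [Finset.mem_powersetCard, Finset.mem_insert, Finset.mem_singleton]
    constructor
    · rintro ⟨hsub, hcard⟩
      obtain ⟨x, y, hxy, rfl⟩ := Finset.card_eq_two.mp hcard
      have hx := hsub (Finset.mem_insert_self x {y})
      have hy := hsub (Finset.mem_insert_of_mem (Finset.mem_singleton_self y))
      simp only [Finset.mem_insert, Finset.mem_singleton] at hx hy
      rcases hx with rfl | rfl | rfl <;> rcases hy with rfl | rfl | rfl <;>
        first
          | exact absurd rfl hxy
          | exact Or.inl rfl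
          | exact Or.inr (Or.inl rfl)
          | exact Or.inr (Or.inr rfl)
          | exact Or.inl (Finset.pair_comm _ _)
          | exact Or.inr (Or.inl (Finset.pair_comm _ _))
          | exact Or.inr (Or.inr (Finset.pair_comm _ _))
    · rintro (rfl | rfl | rfl)
      · refine ⟨?_, Finset.card_pair hjk⟩
        intro a ha
        simp only [Finset.mem_insert, Finset.mem_singleton] at ha ⊢
        tauto
      · refine ⟨?_, Finset.card_pair hik⟩
        intro a ha
        simp only [Finset.mem_insert, Finset.mem_singleton] at ha ⊢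
        tauto
      · refine ⟨?_, Finset.card_pair hij⟩
        intro a ha
        simp only [Finset.mem_insert, Finset.mem_singleton] at ha ⊢
        tauto
  have hne1 : ({j, k} : Finset R) ≠ {i, k} := by
    intro h
    have : j ∈ ({i, k} : Finset R) := h ▸ Finset.mem_insert_self j {k}
    simp only [Finset.mem_insert, Finset.mem_singleton] at this
    rcases this with h | h
    · exact hij h.symm
    · exact hjk h
  have hne2 : ({j, k} : Finset R) ≠ {i, j} := by
    intro h
    have : k ∈ ({i, j} : Finset R) :=
      h ▸ Finset.mem_insert_of_mem (Finset.mem_singleton_self k)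
    simp only [Finset.mem_insert, Finset.mem_singleton] at this
    rcases this with h | h
    · exact hik h.symm
    · exact hjk h.symm
  have hne3 : ({i, k} : Finset R) ≠ {i, j} := by
    intro h
    have : k ∈ ({i, j} : Finset R) :=
      h ▸ Finset.mem_insert_of_mem (Finset.mem_singleton_self k)
    simp only [Finset.mem_insert, Finset.mem_singleton] at this
    rcases this with h | h
    · exact hik h.symm
    · exact hjk h.symm
  rw [hset, Finset.sum_insert, Finset.sum_insert, Finset.sum_singleton, add_assoc]
  · simpa using hne3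
  · simp only [Finset.mem_insert, Finset.mem_singleton, not_or]
    exact ⟨hne1, hne2⟩

end pairs

end Vale.Agent.Lib.P335.H15
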