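import Vale.Agent.Lib.P335.Bip.Basic
import Vale.Agent.Lib.P335.H15.Avg
import Vale.Agent.Lib.P335.H15.Pairs

/-!
# From the three-row inequality to the Poincare inequality for the switch graph of tables

Caputo's argument at the level of tables: the pair averages of disjoint row pairs commute,
the three-row inequality controls the pairs inside a triple of rows, and connectivity of the
switch graph identifies the common kernel.  Together with the pair-level (Johnson) inequality
this gives the Poincare inequality with constant `4` for the energy over ordered switch pairs.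
-/

namespace Vale.Agent.Lib.P335.H15

open Finset Matrix
open Classical
open Vale.Agent.Lib.P335.Bip

section ipLemmas

theorem ip_comm' {α : Type} [Fintype α] (f g : α → ℝ) : ip f g = ip g f := by
  unfold ip
  exact Finset.sum_congr rfl (fun x _ => mul_comm _ _)

theorem ip_sub_left {α : Type} [Fintype α] (f g h : α → ℝ) :
    ip (f - g) h = ip f h - ip g h := by
  unfold ip
  rw [← Finset.sum_sub_distrib]
  exact Finset.sum_congr rfl (fun x _ => by simp only [Pi.sub_apply]; ring)

theorem ip_sub_right {α : Type} [Fintype α] (f g h : α → ℝ) :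
    ip f (g - h) = ip f g - ip f h := by
  unfold ip
  rw [← Finset.sum_sub_distrib]
  exact Finset.sum_congr rfl (fun x _ => by simp only [Pi.sub_apply]; ring)

end ipLemmas

variable {R C : Type} [Fintype R] [DecidableEq R] [Fintype C] [DecidableEq C]
variable {r : R → ℕ} {c : C → ℕ}

theorem ip_centered_self (T : Finset R) (f : Tab r c → ℝ) :
    ip (f - avg T f) (f - avg T f) = ip f f - ip f (avg T f) := by
  rw [ip_sub_left, ip_sub_right, ip_sub_right, Bip.avg_symm T f (avg T f), Bip.avg_idem,
    ip_comm' (avg T f) f]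
  ring

theorem ip_centered_avg {W T : Finset R} (hWT : W ⊆ T) (f : Tab r c → ℝ) :
    ip (f - avg T f) (avg W (f - avg T f)) = ip f (avg W f) - ip f (avg T f) := by
  have e1 : avg W (f - avg T f) = avg W f - avg T f := by
    rw [Bip.avg_sub, (Bip.avg_tower W T hWT f).2]
  rw [e1, ip_sub_left, ip_sub_right, ip_sub_right, Bip.avg_symm T f (avg W f),
    (Bip.avg_tower W T hWT f).1, Bip.avg_symm T f (avg T f), Bip.avg_idem]
  ring

/-- The three-row inequality for all functions, from its form for functions whose average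
over the three rows vanishes. -/
theorem three_row_all
    (h3 : ∀ i j k : R, i ≠ j → i ≠ k → j ≠ k → ∀ f : Tab r c → ℝ,
      avg {i, j, k} f = 0 → ip f (S3 i j k f) ≤ 2 * ip f f)
    (T : Finset R) (hT : T.card = 3) (f : Tab r c → ℝ) :
    ip f f - ip f (avg T f) ≤ ∑ b ∈ T.powersetCard 2, (ip f f - ip f (avg b f)) := by
  obtain ⟨i, j, k, hij, hik, hjk, rfl⟩ := Finset.card_eq_three.mp hT
  rw [sum_powersetCard_two_triple hij hik hjk (fun b => ip f f - ip f (avg b f))]
  have hg0 : avg {i, j, k} (f - avg {i, j, k} f) = 0 := by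
    rw [Bip.avg_sub, Bip.avg_idem, sub_self]
  have key := h3 i j k hij hik hjk _ hg0
  have hS : ∀ g : Tab r c → ℝ, ip g (S3 i j k g)
      = ip g (avg {j, k} g) + ip g (avg {i, k} g) + ip g (avg {i, j} g) := by
    intro g
    unfold ip S3
    rw [← Finset.sum_add_distrib, ← Finset.sum_add_distrib]
    exact Finset.sum_congr rfl (fun x _ => by ring)
  have s1 : ({j, k} : Finset R) ⊆ {i, j, k} := by
    intro a ha
    simp only [Finset.mem_insert, Finset.mem_singleton] at ha ⊢
    tauto
  have s2 : ({i, k} : Finset R) ⊆ {i, j, k} := by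
    intro a ha
    simp only [Finset.mem_insert, Finset.mem_singleton] at ha ⊢
    tauto
  have s3 : ({i, j} : Finset R) ⊆ {i, j, k} := by
    intro a ha
    simp only [Finset.mem_insert, Finset.mem_singleton] at ha ⊢
    tauto
  rw [hS, ip_centered_avg s1, ip_centered_avg s2, ip_centered_avg s3, ip_centered_self] at key
  linarith

theorem avgMat_comm_of (W W' : Finset R)
    (h : ∀ f : Tab r c → ℝ, avg W (avg W' f) = avg W' (avg W f)) :
    (avgMat W : Matrix (Tab r c) (Tab r c) ℝ) * avgMat W' = avgMat W' * avgMat W := by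
  apply mat_ext_mulVec
  intro f
  rw [← Matrix.mulVec_mulVec, ← Matrix.mulVec_mulVec, avgMat_mulVec, avgMat_mulVec,
    avgMat_mulVec, avgMat_mulVec, h]

theorem one_sub_comm_of (W W' : Finset R)
    (h : ∀ f : Tab r c → ℝ, avg W (avg W' f) = avg W' (avg W f)) :
    ((1 : Matrix (Tab r c) (Tab r c) ℝ) - avgMat W) * (1 - avgMat W')
      = (1 - avgMat W') * (1 - avgMat W) := by
  have hc := avgMat_comm_of W W' h
  simp only [sub_mul, mul_sub, one_mul, mul_one, hc]
  abel

theorem sum_one_sub_quad (s : Finset (Finset R)) (f : Tab r c → ℝ) :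
    f ⬝ᵥ ((∑ b ∈ s, ((1 : Matrix (Tab r c) (Tab r c) ℝ) - avgMat b)) *ᵥ f)
      = ∑ b ∈ s, (ip f f - ip f (avg b f)) := by
  rw [Matrix.sum_mulVec, dotProduct_sum]
  exact Finset.sum_congr rfl (fun b _ => quad_one_sub_avgMat b f)

/-- the triple hypothesis of Caputo's argument, from the three-row inequality -/
theorem triple_sq_ge
    (h3' : ∀ T : Finset R, T.card = 3 → ∀ f : Tab r c → ℝ,
      ip f f - ip f (avg T f) ≤ ∑ b ∈ T.powersetCard 2, (ip f f - ip f (avg b f)))
    (T : Finset R) (hT : T.card = 3) (g : Tab r c → ℝ) :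
    g ⬝ᵥ ((∑ b ∈ T.powersetCard 2, ((1 : Matrix (Tab r c) (Tab r c) ℝ) - avgMat b)) *ᵥ g)
      ≤ ((∑ b ∈ T.powersetCard 2, ((1 : Matrix (Tab r c) (Tab r c) ℝ) - avgMat b)) *ᵥ g)
        ⬝ᵥ ((∑ b ∈ T.powersetCard 2, ((1 : Matrix (Tab r c) (Tab r c) ℝ) - avgMat b)) *ᵥ g) := by
  apply sq_ge_of_ge_proj (Q := 1 - avgMat T)
  · rw [Matrix.transpose_sum]
    exact Finset.sum_congr rfl (fun b _ => one_sub_avgMat_transpose b)
  · exact one_sub_avgMat_transpose T
  · exact one_sub_avgMat_idem T
  · rw [mul_sub, mul_one, Finset.sum_mul,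
      Finset.sum_eq_zero (fun b hb =>
        one_sub_avgMat_mul_of_subset (Finset.mem_powersetCard.mp hb).1), sub_zero]
  · intro f
    rw [quad_one_sub_avgMat, sum_one_sub_quad]
    exact h3' T hT f

/-- **The pair gap.**  If the averages over disjoint row sets commute, the three-row
inequality holds and the switch graph is connected, then every function `f` with zero sum
satisfies `⟨f, f⟩ ≤ ∑_b (⟨f, f⟩ - ⟨f, E_b f⟩)`, the sum over all pairs `b` of rows. -/
theorem pair_gap_of
    (hcomm : ∀ W W' : Finset R, Disjoint W W' → ∀ f : Tab r c → ℝ,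
      avg W (avg W' f) = avg W' (avg W f))
    (h3 : ∀ i j k : R, i ≠ j → i ≠ k → j ≠ k → ∀ f : Tab r c → ℝ,
      avg {i, j, k} f = 0 → ip f (S3 i j k f) ≤ 2 * ip f f)
    (hconn : ∀ x y : Tab r c,
      Relation.ReflTransGen (fun u v : Tab r c => AdjIn univ u.1 v.1) x y)
    (f : Tab r c → ℝ) (hf : ∑ x, f x = 0) :
    ip f f ≤ ∑ b ∈ (univ : Finset R).powersetCard 2, (ip f f - ip f (avg b f)) := by
  have hker : ∀ g : Tab r c → ℝ,
      (∀ b : ↥((univ : Finset R).powersetCard 2),
        ((1 : Matrix (Tab r c) (Tab r c) ℝ) - avgMat b.1) *ᵥ g = 0) →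
      avgMat (univ : Finset R) *ᵥ g = g := by
    intro g hg
    have hinv : ∀ W : Finset R, W.card = 2 → avg W g = g := by
      intro W hW
      have h0 := hg ⟨W, Finset.mem_powersetCard.mpr ⟨Finset.subset_univ _, hW⟩⟩
      rw [Matrix.sub_mulVec, Matrix.one_mulVec, avgMat_mulVec] at h0
      exact (sub_eq_zero.mp h0).symm
    have hstep : ∀ u v : Tab r c, AdjIn univ u.1 v.1 → g u = g v := by
      intro u v huv
      obtain ⟨i, i', j, j', _, _, hsw, hv⟩ := huv
      have hcard : ({i, i'} : Finset R).card = 2 := Finset.card_pair hsw.1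
      have hagree : AgreeOff {i, i'} u.1 v.1 := by
        rw [hv]
        exact agreeOff_swRow u.1 i i' j j' (Finset.mem_insert_self i {i'})
          (Finset.mem_insert_of_mem (Finset.mem_singleton_self i'))
      have h1 := avg_congr_cls {i, i'} g hagree
      rwa [hinv _ hcard] at h1
    have hconst : ∀ x y : Tab r c, g x = g y := by
      intro x y
      induction hconn x y with
      | refl => rfl
      | tail _ hbc ih => exact ih.trans (hstep _ _ hbc)
    rw [avgMat_mulVec]
    exact avg_of_invariant univ g (fun x y _ => hconst x y)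
  have hgap := caputo_gap (Ω := Tab r c)
    (fun b : ↥((univ : Finset R).powersetCard 2) =>
      (1 : Matrix (Tab r c) (Tab r c) ℝ) - avgMat b.1)
    (fun b => one_sub_avgMat_transpose b.1) (fun b => one_sub_avgMat_idem b.1)
    (tri (R := R)) tri_h2
    (fun b b' hne hno => one_sub_comm_of b.1 b'.1
      (hcomm b.1 b'.1 (disjoint_of_no_tri b b' hne hno)))
    (fun T g => by
      have e := sum_tri T (fun b => (1 : Matrix (Tab r c) (Tab r c) ℝ) - avgMat b)
      rw [e]
      exact triple_sq_ge (three_row_all h3) T.1 (card_of_mem3 T) g)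
    (avgMat (univ : Finset R)) (avgMat_transpose _) (avgMat_idem _)
    (fun b => one_sub_avgMat_mul_of_subset (Finset.subset_univ b.1))
    hker f
  have h0 : avg (univ : Finset R) f = 0 := by
    funext x
    rw [avg_univ, hf, zero_div]
    rfl
  rw [avgMat_mulVec, h0, dotProduct_zero, sub_zero] at hgap
  have e2 : ∑ b : ↥((univ : Finset R).powersetCard 2),
      f ⬝ᵥ (((1 : Matrix (Tab r c) (Tab r c) ℝ) - avgMat b.1) *ᵥ f)
        = ∑ b ∈ (univ : Finset R).powersetCard 2, (ip f f - ip f (avg b f)) := by
    rw [sum_pairs (fun b => f ⬝ᵥ (((1 : Matrix (Tab r c) (Tab r c) ℝ) - avgMat b) *ᵥ f))]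
    exact Finset.sum_congr rfl (fun b _ => quad_one_sub_avgMat b f)
  rw [e2] at hgap
  exact hgap

/-- the two rows of a switch are the rows in which the two tables differ -/
theorem adjIn_pair_unique {x y : R → Finset C} {b : Finset R} (hb : b.card = 2)
    (h : AdjIn b x y) : b = univ.filter (fun k => x k ≠ y k) := by
  obtain ⟨i, i', j, j', hi, hi', hsw, rfl⟩ := h
  have hpair : ({i, i'} : Finset R) = b := by
    apply Finset.eq_of_subset_of_card_le
    · intro a ha
      simp only [Finset.mem_insert, Finset.mem_singleton] at ha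
      rcases ha with rfl | rfl
      · exact hi
      · exact hi'
    · rw [hb, Finset.card_pair hsw.1]
  rw [← hpair]
  ext k
  simp only [Finset.mem_insert, Finset.mem_singleton, Finset.mem_filter, Finset.mem_univ,
    true_and]
  constructor
  · rintro (rfl | rfl)
    · intro heq
      have hj : j ∈ swRow x k i' j j' k := by
        rw [← heq]
        exact hsw.2.2.1
      rw [mem_swRow_left hsw] at hj
      rcases hj with hj | hj
      · exact hsw.2.1 hj
      · exact hj.2 rfl
    · intro heq
      have hj : j' ∈ swRow x i k j j' k := by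
        rw [← heq]
        exact hsw.2.2.2.2.2
      rw [mem_swRow_right hsw] at hj
      rcases hj with hj | hj
      · exact hsw.2.1 hj.symm
      · exact hj.2 rfl
  · intro hne
    by_contra hk
    push Not at hk
    exact hne (swRow_other x hk.1 hk.2 j j').symm

/-- every switch uses exactly one pair of rows: the pair energies add up to at most the
total switch energy -/
theorem sum_energyIn_le (f : Tab r c → ℝ) :
    ∑ b ∈ (univ : Finset R).powersetCard 2, energyIn b f ≤ energyIn univ f := by
  unfold energyIn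
  rw [Finset.sum_comm]
  apply Finset.sum_le_sum
  intro x _
  rw [Finset.sum_comm]
  apply Finset.sum_le_sum
  intro y _
  have hv0 : 0 ≤ (f x - f y) ^ 2 := sq_nonneg _
  have hw0 : 0 ≤ (if AdjIn univ x.1 y.1 then (f x - f y) ^ 2 else 0) := by
    by_cases h : AdjIn univ x.1 y.1
    · rw [if_pos h]
      exact hv0
    · rw [if_neg h]
  calc ∑ b ∈ (univ : Finset R).powersetCard 2, (if AdjIn b x.1 y.1 then (f x - f y) ^ 2 else 0)
      ≤ ∑ b ∈ (univ : Finset R).powersetCard 2,
          (if b = univ.filter (fun k => x.1 k ≠ y.1 k)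
            then (if AdjIn univ x.1 y.1 then (f x - f y) ^ 2 else 0) else 0) := by
        apply Finset.sum_le_sum
        intro b hb
        by_cases hadj : AdjIn b x.1 y.1
        · have hbe := adjIn_pair_unique (Finset.mem_powersetCard.mp hb).2 hadj
          rw [if_pos hadj, if_pos hbe, if_pos (AdjIn.mono (Finset.subset_univ b) hadj)]
        · rw [if_neg hadj]
          by_cases hbe : b = univ.filter (fun k => x.1 k ≠ y.1 k)
          · rw [if_pos hbe]
            exact hw0
          · rw [if_neg hbe]
    _ ≤ (if AdjIn univ x.1 y.1 then (f x - f y) ^ 2 else 0) := by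
        rw [Finset.sum_ite_eq']
        by_cases hmem : univ.filter (fun k => x.1 k ≠ y.1 k) ∈ (univ : Finset R).powersetCard 2
        · rw [if_pos hmem]
        · rw [if_neg hmem]
          exact hw0

/-- **Poincare inequality for tables, from the modules.**  Commutation of disjoint row
sets, the three-row inequality, connectivity and the pair-level inequality together give
`4 ⟨f, f⟩ ≤` the switch energy over ordered pairs, for every `f` with zero sum. -/
theorem bip_poincare_of
    (hcomm : ∀ W W' : Finset R, Disjoint W W' → ∀ f : Tab r c → ℝ,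
      avg W (avg W' f) = avg W' (avg W f))
    (h3 : ∀ i j k : R, i ≠ j → i ≠ k → j ≠ k → ∀ f : Tab r c → ℝ,
      avg {i, j, k} f = 0 → ip f (S3 i j k f) ≤ 2 * ip f f)
    (hconn : ∀ x y : Tab r c,
      Relation.ReflTransGen (fun u v : Tab r c => AdjIn univ u.1 v.1) x y)
    (hjohn : ∀ i i' : R, i ≠ i' → ∀ f : Tab r c → ℝ,
      4 * (ip f f - ip f (avg {i, i'} f)) ≤ energyIn {i, i'} f)
    (f : Tab r c → ℝ) (hf : ∑ x, f x = 0) :
    4 * ip f f ≤ energyIn univ f := by
  have h1 := pair_gap_of hcomm h3 hconn f hf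
  have h2 : ∑ b ∈ (univ : Finset R).powersetCard 2, 4 * (ip f f - ip f (avg b f))
      ≤ ∑ b ∈ (univ : Finset R).powersetCard 2, energyIn b f := by
    apply Finset.sum_le_sum
    intro b hb
    obtain ⟨i, i', hii, rfl⟩ := Finset.card_eq_two.mp (Finset.mem_powersetCard.mp hb).2
    exact hjohn i i' hii f
  have h4 := sum_energyIn_le (r := r) (c := c) f
  rw [← Finset.mul_sum] at h2
  linarith

end Vale.Agent.Lib.P335.H15
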