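import Vale.Agent.Lib.P335.Bip.Same
import Vale.Agent.Lib.P335.Bip.Cross
import Vale.Agent.Lib.P335.Bip.Spectral
import Vale.Agent.Lib.P335.Bip.Comm
import Vale.Agent.Lib.P335.Bip.Johnson
import Vale.Agent.Lib.P335.H15.RowGap

/-!
# The three-row inequality and the Poincare inequality for tables

The sum `S3` of the three pair averages of a triple of rows has no eigenvalue above `2`
except on functions that are constant on the three-row classes: for an eigenvector the
largest difference across a same-type switch, and then the largest difference across a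
cross-type switch, must vanish.  The spectral principle turns this into the three-row
inequality, and the Caputo assembly gives the Poincare inequality of the switch graph.
-/

namespace Vale.Agent.Lib.P335.H15

open Finset
open Classical
open Vale.Agent.Lib.P335.Bip

/-- a nonnegative function on the related pairs of a finite type has a bound that is either
zero or attained -/
theorem exists_max_rel {α : Type} [Fintype α] (Rel : α → α → Prop) (g : α → α → ℝ)
    (hg : ∀ u w, 0 ≤ g u w) :
    ∃ L : ℝ, 0 ≤ L ∧ (∀ u w, Rel u w → g u w ≤ L) ∧ (L = 0 ∨ ∃ u w, Rel u w ∧ g u w = L) := by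
  by_cases h : ∃ u w, Rel u w
  · obtain ⟨u0, w0, h0⟩ := h
    have hne : (univ.filter (fun p : α × α => Rel p.1 p.2)).Nonempty :=
      ⟨(u0, w0), by simp [h0]⟩
    obtain ⟨p, hp, hmax⟩ := Finset.exists_max_image _ (fun p : α × α => g p.1 p.2) hne
    refine ⟨g p.1 p.2, hg _ _, ?_, Or.inr ⟨p.1, p.2, ?_, rfl⟩⟩
    · intro u w huw
      exact hmax (u, w) (by simp [huw])
    · simpa using hp
  · refine ⟨0, le_refl _, ?_, Or.inl rfl⟩
    intro u w huw
    exact absurd ⟨u, w, huw⟩ h

variable {R C : Type} [Fintype R] [DecidableEq R] [Fintype C] [DecidableEq C]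
variable {r : R → ℕ} {c : C → ℕ}

/-- `S3` in terms of any enumeration of the triple -/
theorem S3_apply_perm {i j k a b e : R} (hij : i ≠ j) (hik : i ≠ k) (hjk : j ≠ k)
    (hab : a ≠ b) (hae : a ≠ e) (hbe : b ≠ e) (hT : ({a, b, e} : Finset R) = {i, j, k})
    (f : Tab r c → ℝ) (x : Tab r c) :
    S3 i j k f x = avg {b, e} f x + avg {a, e} f x + avg {a, b} f x := by
  have h1 := sum_powersetCard_two_triple hij hik hjk (fun W => avg W f x)
  have h2 := sum_powersetCard_two_triple hab hae hbe (fun W => avg W f x)
  rw [hT] at h2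
  unfold S3
  exact h1.symm.trans h2

/-- an eigenvector of `S3` with eigenvalue above `2` is constant along the switches inside
the triple -/
theorem eigen_invariant (i j k : R) (hij : i ≠ j) (hik : i ≠ k) (hjk : j ≠ k) (μ : ℝ)
    (hμ : 2 < μ) (v : Tab r c → ℝ) (hv : ∀ x, S3 i j k v x = μ * v x) :
    ∀ u w : Tab r c, AdjIn {i, j, k} u.1 w.1 → v u = v w := by
  have hTcard : ({i, j, k} : Finset R).card = 3 :=
    Finset.card_eq_three.mpr ⟨i, j, k, hij, hik, hjk, rfl⟩
  have hTeq : ∀ a b e : R, a ∈ ({i, j, k} : Finset R) → b ∈ ({i, j, k} : Finset R) →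
      e ∈ ({i, j, k} : Finset R) → a ≠ b → a ≠ e → b ≠ e →
      ({a, b, e} : Finset R) = {i, j, k} := by
    intro a b e ha hb he hab hae hbe
    apply Finset.eq_of_subset_of_card_le
    · intro z hz
      simp only [Finset.mem_insert, Finset.mem_singleton] at hz
      rcases hz with rfl | rfl | rfl
      · exact ha
      · exact hb
      · exact he
    · rw [hTcard, Finset.card_eq_three.mpr ⟨a, b, e, hab, hae, hbe, rfl⟩]
  have hstep : ∀ (a b e : R) (p q : C) (x y : Tab r c), a ∈ ({i, j, k} : Finset R) →
      b ∈ ({i, j, k} : Finset R) → e ∈ ({i, j, k} : Finset R) → a ≠ e → b ≠ e →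
      SwOK x.1 a b p q → y.1 = swRow x.1 a b p q → ∀ B : ℝ,
      |avg {b, e} v x - avg {b, e} v y| ≤ B → |avg {a, e} v x - avg {a, e} v y| ≤ B →
      μ * |v x - v y| ≤ 2 * B := by
    intro a b e p q x y ha hb he hae hbe hsw hy B h1 h2
    have hab := hsw.1
    have hSx := S3_apply_perm hij hik hjk hab hae hbe (hTeq a b e ha hb he hab hae hbe) v x
    have hSy := S3_apply_perm hij hik hjk hab hae hbe (hTeq a b e ha hb he hab hae hbe) v y
    have hagree : AgreeOff {a, b} x.1 y.1 := by
      rw [hy]
      exact agreeOff_swRow x.1 a b p q (Finset.mem_insert_self a {b})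
        (Finset.mem_insert_of_mem (Finset.mem_singleton_self b))
    have h3 : avg {a, b} v x = avg {a, b} v y := Bip.avg_apply_of_agree {a, b} v x y hagree
    have e1 : μ * (v x - v y)
        = (avg {b, e} v x - avg {b, e} v y) + (avg {a, e} v x - avg {a, e} v y) := by
      rw [mul_sub, ← hv x, ← hv y, hSx, hSy, h3]
      ring
    have habs : μ * |v x - v y| = |μ * (v x - v y)| := by
      rw [abs_mul, abs_of_pos (by linarith : (0 : ℝ) < μ)]
    rw [habs, e1]
    have h4 := abs_add_le (avg {b, e} v x - avg {b, e} v y) (avg {a, e} v x - avg {a, e} v y)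
    linarith
  obtain ⟨Ls, hLs0, hLs, hLsmax⟩ := exists_max_rel
    (fun u w : Tab r c => STAdj {i, j, k} u.1 w.1) (fun u w => |v u - v w|)
    (fun _ _ => abs_nonneg _)
  have hLs_zero : Ls = 0 := by
    rcases hLsmax with h | ⟨x, y, hxy, hval⟩
    · exact h
    · obtain ⟨a, b, e, p, q, ha, hb, he, hae, hbe, hsw, hst, hy⟩ := hxy
      have hab := hsw.1
      have hT1 := hTeq a b e ha hb he hab hae hbe
      have hT2 := hTeq b a e hb ha he hab.symm hbe hae
      have h1 : |avg {b, e} v x - avg {b, e} v y| ≤ Ls :=
        Bip.same_type_step a b e hab hae hbe p q x y hsw hy hst v Ls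
          (fun u w huw => hLs u w (by rw [← hT1]; exact huw))
      have h2 : |avg {a, e} v x - avg {a, e} v y| ≤ Ls :=
        Bip.same_type_step b a e hab.symm hbe hae q p x y hsw.symm
          (hy.trans (swRow_comm x.1 hab p q)) (Iff.symm hst) v Ls
          (fun u w huw => hLs u w (by rw [← hT2]; exact huw))
      have h3 := hstep a b e p q x y ha hb he hae hbe hsw hy Ls h1 h2
      rw [hval] at h3
      have h5 : Ls ≤ 0 := by nlinarith
      exact le_antisymm h5 hLs0
  obtain ⟨Lc, hLc0, hLc, hLcmax⟩ := exists_max_rel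
    (fun u w : Tab r c => CTAdj {i, j, k} u.1 w.1) (fun u w => |v u - v w|)
    (fun _ _ => abs_nonneg _)
  have hLc_zero : Lc = 0 := by
    rcases hLcmax with h | ⟨x, y, hxy, hval⟩
    · exact h
    · obtain ⟨a, b, e, p, q, ha, hb, he, hae, hbe, hsw, hct, hy⟩ := hxy
      have hab := hsw.1
      have hT1 := hTeq a b e ha hb he hab hae hbe
      have hT2 := hTeq b a e hb ha he hab.symm hbe hae
      have h1 : |avg {b, e} v x - avg {b, e} v y| ≤ Lc + Ls :=
        Bip.cross_type_step a b e hab hae hbe p q x y hsw hy hct v Ls Lc hLs0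
          (fun u w huw => hLs u w (by rw [← hT1]; exact huw))
          (fun u w huw => hLc u w (by rw [← hT1]; exact huw))
      have h2 : |avg {a, e} v x - avg {a, e} v y| ≤ Lc + Ls :=
        Bip.cross_type_step b a e hab.symm hbe hae q p x y hsw.symm
          (hy.trans (swRow_comm x.1 hab p q)) (fun h => hct (Iff.symm h)) v Ls Lc hLs0
          (fun u w huw => hLs u w (by rw [← hT2]; exact huw))
          (fun u w huw => hLc u w (by rw [← hT2]; exact huw))
      have h3 := hstep a b e p q x y ha hb he hae hbe hsw hy (Lc + Ls) h1 h2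
      rw [hval, hLs_zero] at h3
      have h5 : Lc ≤ 0 := by nlinarith
      exact le_antisymm h5 hLc0
  intro u w huw
  obtain ⟨a, b, p, q, ha, hb, hsw, hw⟩ := huw
  have hlt : ({a, b} : Finset R).card < ({i, j, k} : Finset R).card := by
    have := Finset.card_le_two (a := a) (b := b)
    omega
  obtain ⟨e, he, hne⟩ := Finset.exists_mem_notMem_of_card_lt_card hlt
  simp only [Finset.mem_insert, Finset.mem_singleton, not_or] at hne
  have hae : a ≠ e := fun h => hne.1 h.symm
  have hbe : b ≠ e := fun h => hne.2 h.symm
  have hzero : |v u - v w| ≤ 0 := by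
    by_cases hst : SameType u.1 e p q
    · have := hLs u w ⟨a, b, e, p, q, ha, hb, he, hae, hbe, hsw, hst, hw⟩
      rwa [hLs_zero] at this
    · have := hLc u w ⟨a, b, e, p, q, ha, hb, he, hae, hbe, hsw, hst, hw⟩
      rwa [hLc_zero] at this
  have h0 : |v u - v w| = 0 := le_antisymm hzero (abs_nonneg _)
  exact sub_eq_zero.mp (abs_eq_zero.mp h0)

/-- **The three-row inequality.**  For three distinct rows and a function whose average
over the three-row classes vanishes, the three pair averages satisfy
`⟨f, E_jk f + E_ik f + E_ij f⟩ ≤ 2 ⟨f, f⟩`. -/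
theorem three_row (i j k : R) (hij : i ≠ j) (hik : i ≠ k) (hjk : j ≠ k) (f : Tab r c → ℝ)
    (hf : avg {i, j, k} f = 0) : ip f (S3 i j k f) ≤ 2 * ip f f := by
  let M : (Tab r c → ℝ) →ₗ[ℝ] (Tab r c → ℝ) :=
    { toFun := S3 i j k
      map_add' := by
        intro g h
        funext x
        unfold S3
        rw [Bip.avg_add, Bip.avg_add, Bip.avg_add]
        simp only [Pi.add_apply]
        ring
      map_smul' := by
        intro a g
        funext x
        unfold S3
        rw [Bip.avg_smul, Bip.avg_smul, Bip.avg_smul]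
        simp only [Pi.smul_apply, smul_eq_mul, RingHom.id_apply]
        ring }
  have hMapply : ∀ g : Tab r c → ℝ, M g = S3 i j k g := fun _ => rfl
  have hM : ∀ g h : Tab r c → ℝ, ∑ x, g x * M h x = ∑ x, M g x * h x := by
    intro g h
    have e1 : ∀ W : Finset R, ∑ x, g x * avg W h x = ∑ x, avg W g x * h x :=
      fun W => (Bip.avg_symm W g h).symm
    rw [hMapply, hMapply]
    unfold S3
    simp only [mul_add, add_mul, Finset.sum_add_distrib]
    rw [e1, e1, e1]
  let K : Submodule ℝ (Tab r c → ℝ) :=
    { carrier := {g | avg {i, j, k} g = g}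
      add_mem' := by
        intro g h hg hh
        have hg' : avg {i, j, k} g = g := hg
        have hh' : avg {i, j, k} h = h := hh
        show avg {i, j, k} (g + h) = g + h
        rw [Bip.avg_add, hg', hh']
      zero_mem' := Bip.avg_zero _
      smul_mem' := by
        intro a g hg
        have hg' : avg {i, j, k} g = g := hg
        show avg {i, j, k} (a • g) = a • g
        rw [Bip.avg_smul, hg'] }
  have key := Bip.spectral_le M hM 2 K ?_ f ?_
  · have e2 : ∑ x, f x ^ 2 = ip f f := by
      unfold ip
      exact Finset.sum_congr rfl (fun x _ => sq (f x))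
    rw [e2] at key
    exact key
  · intro μ v _ hMv hμ
    have hpt : ∀ x, S3 i j k v x = μ * v x := fun x => congrFun hMv x
    have hadj := eigen_invariant i j k hij hik hjk μ hμ v hpt
    show avg {i, j, k} v = v
    rw [Bip.avg_eq_self_iff]
    intro x y hxy
    have hreach := Bip.conn {i, j, k} x y hxy
    clear hxy
    induction hreach with
    | refl => rfl
    | tail _ hbc ih => exact ih.trans (hadj _ _ hbc)
  · intro v hvK
    have hv' : avg {i, j, k} v = v := hvK
    have h0 : ip v f = 0 := by
      rw [← hv', Bip.avg_symm, hf]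
      unfold ip
      simp
    exact h0

/-- **Poincare inequality for the switch graph of tables.**  For all margins and every
function `f` with zero sum, `4 ⟨f, f⟩` is at most the switch energy of `f` over ordered
pairs of tables joined by a switch (so the unit-weight switch Laplacian has spectral gap at
least `2`). -/
theorem bip_poincare (f : Tab r c → ℝ) (hf : ∑ x, f x = 0) : 4 * ip f f ≤ energyIn univ f :=
  bip_poincare_of (fun W W' h g => Bip.avg_comm W W' h g)
    (fun i j k hij hik hjk g hg => three_row i j k hij hik hjk g hg)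
    (fun x y => Bip.conn univ x y (fun i hi => absurd (Finset.mem_univ i) hi))
    (fun i i' hii g => Bip.johnson i i' hii g) f hf

end Vale.Agent.Lib.P335.H15
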