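import Vale.Agent.Lib.P335.H2.TripleTransfer
import Vale.Agent.Lib.P335.Gr.Pair
import Vale.Agent.Lib.P335.Bip.Final

/-!
# The three-row inequality in the graph model (problem P335, simple graphs): module G2

For three vertices `T = {u, v, w}` the class of the graphs that agree with `G0` off `T` is
encoded by three-row tables: row `x ∈ T` holds the neighbours of `x` outside `T` and, in one
extra (virtual) column, the information whether the pair of `T` opposite to `x` is a
non-edge.  The tables of the class are exactly the tables with the margins of the table of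
`G0`, and agreeing off a pair of `T` means having the same third row.  The three-row
inequality for tables therefore gives the three-pair inequality for graphs.
-/

namespace Vale.Agent.Lib.P335.H15.Triple

open Finset
open Classical
open Vale.Agent.Lib.P335 Vale.Agent.Lib.P335.Gr

variable {n : ℕ} {d : Fin n → ℕ}

/-- the pair of `T` opposite to `x` is an edge of `E` -/
def OppIn (T : Finset (Fin n)) (E : Finset (Sym2 (Fin n))) (x : Fin n) : Prop :=
  ∃ a ∈ T.erase x, ∃ b ∈ T.erase x, a ≠ b ∧ s(a, b) ∈ E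

/-- the three-row table of a graph: the row of `x ∈ T` consists of the neighbours of `x`
outside `T` and of the virtual column `q` when the pair opposite to `x` is not an edge -/
noncomputable def tbl (T : Finset (Fin n)) (q : Fin n) (E : Finset (Sym2 (Fin n)))
    (x : Fin n) : Finset (Fin n) :=
  if x ∈ T then nbIn E Tᶜ x ∪ (if OppIn T E x then ∅ else {q}) else ∅

theorem mem_tbl {T : Finset (Fin n)} {q : Fin n} {E : Finset (Sym2 (Fin n))} {x z : Fin n} :
    z ∈ tbl T q E x ↔ x ∈ T ∧ ((z ∉ T ∧ s(x, z) ∈ E) ∨ (z = q ∧ ¬ OppIn T E x)) := by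
  unfold tbl
  by_cases hx : x ∈ T
  · rw [if_pos hx]
    by_cases ho : OppIn T E x
    · rw [if_pos ho]
      simp only [Finset.union_empty, nbIn, Finset.mem_filter, Finset.mem_compl]
      tauto
    · rw [if_neg ho]
      simp only [Finset.mem_union, nbIn, Finset.mem_filter, Finset.mem_compl,
        Finset.mem_singleton]
      tauto
  · rw [if_neg hx]
    simp [hx]

theorem tbl_of_notMem {T : Finset (Fin n)} {q : Fin n} {E : Finset (Sym2 (Fin n))} {x : Fin n}
    (hx : x ∉ T) : tbl T q E x = ∅ := by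
  unfold tbl
  rw [if_neg hx]

theorem oppIn_iff {e a b : Fin n} (hea : e ≠ a) (heb : e ≠ b) (hab : a ≠ b)
    (E : Finset (Sym2 (Fin n))) : OppIn {e, a, b} E e ↔ s(a, b) ∈ E := by
  unfold OppIn
  have herase : ({e, a, b} : Finset (Fin n)).erase e = {a, b} := by
    ext z
    simp only [Finset.mem_erase, Finset.mem_insert, Finset.mem_singleton]
    constructor
    · rintro ⟨hz, rfl | rfl | rfl⟩
      · exact absurd rfl hz
      · exact Or.inl rfl
      · exact Or.inr rfl
    · rintro (rfl | rfl)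
      · exact ⟨hea.symm, Or.inr (Or.inl rfl)⟩
      · exact ⟨heb.symm, Or.inr (Or.inr rfl)⟩
  rw [herase]
  constructor
  · rintro ⟨a', ha', b', hb', hne, hE⟩
    simp only [Finset.mem_insert, Finset.mem_singleton] at ha' hb'
    rcases ha' with rfl | rfl <;> rcases hb' with rfl | rfl
    · exact absurd rfl hne
    · exact hE
    · rw [Sym2.eq_swap]
      exact hE
    · exact absurd rfl hne
  · intro hE
    exact ⟨a, Finset.mem_insert_self a {b}, b,
      Finset.mem_insert_of_mem (Finset.mem_singleton_self b), hab, hE⟩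

theorem triple_perm (e a b : Fin n) : ({e, a, b} : Finset (Fin n)) = {b, e, a} := by
  ext z
  simp only [Finset.mem_insert, Finset.mem_singleton]
  tauto

theorem oppIn_iff2 {e a b : Fin n} (hea : e ≠ a) (heb : e ≠ b) (hab : a ≠ b)
    (E : Finset (Sym2 (Fin n))) : OppIn {e, a, b} E a ↔ s(e, b) ∈ E := by
  rw [Finset.insert_comm e a {b}]
  exact oppIn_iff hea.symm hab heb E

theorem oppIn_iff3 {e a b : Fin n} (hea : e ≠ a) (heb : e ≠ b) (hab : a ≠ b)
    (E : Finset (Sym2 (Fin n))) : OppIn {e, a, b} E b ↔ s(e, a) ∈ E := by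
  rw [triple_perm e a b]
  exact oppIn_iff heb.symm hab.symm hea E

theorem exists_triple {T : Finset (Fin n)} (hT : T.card = 3) {x : Fin n} (hx : x ∈ T) :
    ∃ a b, x ≠ a ∧ x ≠ b ∧ a ≠ b ∧ T = {x, a, b} := by
  have h2 : (T.erase x).card = 2 := by rw [Finset.card_erase_of_mem hx, hT]
  obtain ⟨a, b, hab, hE⟩ := Finset.card_eq_two.mp h2
  have ha : a ∈ T.erase x := by
    rw [hE]
    exact Finset.mem_insert_self a {b}
  have hb : b ∈ T.erase x := by
    rw [hE]
    exact Finset.mem_insert_of_mem (Finset.mem_singleton_self b)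
  refine ⟨a, b, (Finset.ne_of_mem_erase ha).symm, (Finset.ne_of_mem_erase hb).symm, hab, ?_⟩
  rw [← Finset.insert_erase hx, hE]

/-- the number of edges inside `T`, counted through the opposite vertices -/
noncomputable def kcount (T : Finset (Fin n)) (E : Finset (Sym2 (Fin n))) : ℕ :=
  (T.filter (fun x => OppIn T E x)).card

theorem sum_triple {e a b : Fin n} (hea : e ≠ a) (heb : e ≠ b) (hab : a ≠ b) (F : Fin n → ℕ) :
    ∑ x ∈ ({e, a, b} : Finset (Fin n)), F x = F e + F a + F b := by
  rw [Finset.sum_insert, Finset.sum_insert, Finset.sum_singleton, add_assoc]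
  · simpa using hab
  · simp only [Finset.mem_insert, Finset.mem_singleton, not_or]
    exact ⟨hea, heb⟩

theorem kcount_triple {e a b : Fin n} (hea : e ≠ a) (heb : e ≠ b) (hab : a ≠ b)
    (E : Finset (Sym2 (Fin n))) :
    kcount {e, a, b} E = (if s(a, b) ∈ E then 1 else 0) + (if s(e, b) ∈ E then 1 else 0)
      + (if s(e, a) ∈ E then 1 else 0) := by
  unfold kcount
  rw [Finset.card_filter, sum_triple hea heb hab]
  simp only [oppIn_iff hea heb hab, oppIn_iff2 hea heb hab, oppIn_iff3 hea heb hab]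

theorem nbIn_triple {e a b : Fin n} (hea : e ≠ a) (heb : e ≠ b) (hab : a ≠ b)
    {E : Finset (Sym2 (Fin n))} (hloop : ∀ p ∈ E, ¬ p.IsDiag) :
    (nbIn E {e, a, b} e).card = (if s(e, a) ∈ E then 1 else 0) + (if s(e, b) ∈ E then 1 else 0) := by
  have h1 : s(e, e) ∉ E := fun h => hloop _ h (by simp)
  unfold nbIn
  rw [Finset.card_filter, sum_triple hea heb hab, if_neg h1, zero_add]

/-- the inner degrees of the triple add up to twice the number of inner edges -/
theorem sum_inner_triple {T : Finset (Fin n)} (hT : T.card = 3) {E : Finset (Sym2 (Fin n))}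
    (hloop : ∀ p ∈ E, ¬ p.IsDiag) : ∑ x ∈ T, (nbIn E T x).card = 2 * kcount T E := by
  obtain ⟨e, a, b, hea, heb, hab, rfl⟩ := Finset.card_eq_three.mp hT
  rw [sum_triple hea heb hab, kcount_triple hea heb hab, nbIn_triple hea heb hab hloop]
  have h2 : (nbIn E {e, a, b} a).card
      = (if s(e, a) ∈ E then 1 else 0) + (if s(a, b) ∈ E then 1 else 0) := by
    rw [Finset.insert_comm e a {b}, nbIn_triple hea.symm hab heb hloop, Sym2.eq_swap]
  have h3 : (nbIn E {e, a, b} b).card
      = (if s(e, b) ∈ E then 1 else 0) + (if s(a, b) ∈ E then 1 else 0) := by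
    rw [triple_perm e a b, nbIn_triple heb.symm hab.symm hea hloop, Sym2.eq_swap,
      Sym2.eq_swap (a := b) (b := a)]
  rw [h2, h3]
  ring

/-- the sum of the inner degrees of a vertex set is the same for two realizations that agree
off the set -/
theorem sum_inner_eq {U : Finset (Fin n)} {E E' : Finset (Sym2 (Fin n))}
    (hE : IsRealization d E) (hE' : IsRealization d E') (h : GAgree U E E') :
    ∑ v ∈ U, (nbIn E U v).card = ∑ v ∈ U, (nbIn E' U v).card := by
  have houtE : ∀ z ∈ Uᶜ, nbIn E Uᶜ z = nbIn E' Uᶜ z := by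
    intro z hz
    ext x
    simp only [nbIn, Finset.mem_filter, Finset.mem_compl]
    have hz' : z ∉ U := Finset.mem_compl.mp hz
    constructor
    · rintro ⟨hx, hxE⟩
      exact ⟨hx, (h z x hz' hx).1 hxE⟩
    · rintro ⟨hx, hxE⟩
      exact ⟨hx, (h z x hz' hx).2 hxE⟩
  have key : ∀ F : Finset (Sym2 (Fin n)), IsRealization d F →
      ∑ v ∈ U, d v + ∑ z ∈ Uᶜ, (nbIn F Uᶜ z).card
        = ∑ v ∈ U, (nbIn F U v).card + ∑ z ∈ Uᶜ, d z := by
    intro F hF
    have e1 : ∑ v ∈ U, d v = ∑ v ∈ U, (nbIn F U v).card + ∑ v ∈ U, (nbIn F Uᶜ v).card := by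
      rw [← Finset.sum_add_distrib]
      exact Finset.sum_congr rfl fun v _ => by rw [← hF.2 v, card_nbrs_inout F U v]
    have e2 : ∑ z ∈ Uᶜ, d z
        = ∑ z ∈ Uᶜ, (nbIn F U z).card + ∑ z ∈ Uᶜ, (nbIn F Uᶜ z).card := by
      rw [← Finset.sum_add_distrib]
      exact Finset.sum_congr rfl fun v _ => by rw [← hF.2 v, card_nbrs_inout F U v]
    have e3 := sum_nbIn_comm F U
    omega
  have k1 := key E hE
  have k2 := key E' hE'
  have k3 : ∑ z ∈ Uᶜ, (nbIn E Uᶜ z).card = ∑ z ∈ Uᶜ, (nbIn E' Uᶜ z).card :=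
    Finset.sum_congr rfl fun z hz => by rw [houtE z hz]
  omega

/-- the number of inner edges is constant on the class -/
theorem kcount_eq {T : Finset (Fin n)} (hT : T.card = 3) {E E' : Finset (Sym2 (Fin n))}
    (hE : IsRealization d E) (hE' : IsRealization d E') (h : GAgree T E E') :
    kcount T E = kcount T E' := by
  have h1 := sum_inner_triple hT hE.1
  have h2 := sum_inner_triple hT hE'.1
  have h3 := sum_inner_eq hE hE' h
  omega

/-- the row sizes of the table -/
theorem card_tbl_row {T : Finset (Fin n)} (hT : T.card = 3) {q : Fin n} (hq : q ∈ T)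
    {E : Finset (Sym2 (Fin n))} (hE : IsRealization d E) {x : Fin n} (hx : x ∈ T) :
    (tbl T q E x).card + kcount T E = d x + 1 := by
  obtain ⟨a, b, hxa, hxb, hab, rfl⟩ := exists_triple hT hx
  have hdisj : Disjoint (nbIn E ({x, a, b} : Finset (Fin n))ᶜ x) {q} := by
    rw [Finset.disjoint_singleton_right]
    intro hmem
    simp only [nbIn, Finset.mem_filter, Finset.mem_compl] at hmem
    exact hmem.1 hq
  have hdeg : d x = (nbIn E {x, a, b} x).card
      + (nbIn E ({x, a, b} : Finset (Fin n))ᶜ x).card := by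
    rw [← hE.2 x, card_nbrs_inout E {x, a, b} x]
  rw [kcount_triple hxa hxb hab, hdeg, nbIn_triple hxa hxb hab hE.1]
  unfold tbl
  rw [if_pos hx]
  by_cases ho : s(a, b) ∈ E
  · rw [if_pos ((oppIn_iff hxa hxb hab E).mpr ho), Finset.union_empty, if_pos ho]
    omega
  · rw [if_neg (fun h => ho ((oppIn_iff hxa hxb hab E).mp h)),
      Finset.card_union_of_disjoint hdisj, Finset.card_singleton, if_neg ho]
    omega

/-- the column counts of the table -/
noncomputable def colc (T : Finset (Fin n)) (q : Fin n) (E : Finset (Sym2 (Fin n)))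
    (z : Fin n) : ℕ :=
  (univ.filter (fun x => z ∈ tbl T q E x)).card

theorem colc_out {T : Finset (Fin n)} {q : Fin n} (hq : q ∈ T) (E : Finset (Sym2 (Fin n)))
    {z : Fin n} (hz : z ∉ T) : colc T q E z = (nbIn E T z).card := by
  unfold colc nbIn
  congr 1
  ext x
  simp only [Finset.mem_filter, Finset.mem_univ, true_and, mem_tbl]
  constructor
  · rintro ⟨hx, h | h⟩
    · refine ⟨hx, ?_⟩
      rw [Sym2.eq_swap]
      exact h.2
    · exact absurd (h.1 ▸ hq) hz
  · rintro ⟨hx, h⟩
    refine ⟨hx, Or.inl ⟨hz, ?_⟩⟩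
    rw [Sym2.eq_swap]
    exact h

theorem colc_virtual {T : Finset (Fin n)} (hT : T.card = 3) {q : Fin n} (hq : q ∈ T)
    (E : Finset (Sym2 (Fin n))) : colc T q E q + kcount T E = 3 := by
  unfold colc kcount
  have e : univ.filter (fun x => q ∈ tbl T q E x) = T.filter (fun x => ¬ OppIn T E x) := by
    ext x
    rw [Finset.mem_filter, Finset.mem_filter, mem_tbl]
    constructor
    · rintro ⟨-, hx, h | h⟩
      · exact absurd hq h.1
      · exact ⟨hx, h.2⟩
    · rintro ⟨hx, h⟩
      exact ⟨Finset.mem_univ x, hx, Or.inr ⟨rfl, h⟩⟩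
  rw [e, add_comm, Finset.card_filter_add_card_filter_not, hT]

theorem colc_unused {T : Finset (Fin n)} {q : Fin n} (E : Finset (Sym2 (Fin n))) {z : Fin n}
    (hz : z ∈ T) (hzq : z ≠ q) : colc T q E z = 0 := by
  unfold colc
  rw [Finset.card_eq_zero, Finset.filter_eq_empty_iff]
  intro x _ hmem
  rw [mem_tbl] at hmem
  rcases hmem.2 with h | h
  · exact h.1 hz
  · exact hzq h.1

theorem nbIn_compl_eq {T : Finset (Fin n)} {E E' : Finset (Sym2 (Fin n))} (h : GAgree T E E')
    {z : Fin n} (hz : z ∉ T) : nbIn E Tᶜ z = nbIn E' Tᶜ z := by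
  ext x
  simp only [nbIn, Finset.mem_filter, Finset.mem_compl]
  constructor
  · rintro ⟨hx, hxE⟩
    exact ⟨hx, (h z x hz hx).1 hxE⟩
  · rintro ⟨hx, hxE⟩
    exact ⟨hx, (h z x hz hx).2 hxE⟩

/-- all the tables of a class have the same margins -/
theorem margins_eq {T : Finset (Fin n)} (hT : T.card = 3) {q : Fin n} (hq : q ∈ T)
    {E E' : Finset (Sym2 (Fin n))} (hE : IsRealization d E) (hE' : IsRealization d E')
    (h : GAgree T E E') :
    (∀ x, (tbl T q E' x).card = (tbl T q E x).card) ∧ (∀ z, colc T q E' z = colc T q E z) := by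
  have hk := kcount_eq hT hE hE' h
  constructor
  · intro x
    by_cases hx : x ∈ T
    · have h1 := card_tbl_row hT hq hE hx
      have h2 := card_tbl_row hT hq hE' hx
      omega
    · rw [tbl_of_notMem hx, tbl_of_notMem hx]
  · intro z
    by_cases hz : z ∈ T
    · by_cases hzq : z = q
      · rw [hzq]
        have h1 := colc_virtual hT hq E
        have h2 := colc_virtual hT hq E'
        omega
      · rw [colc_unused E' hz hzq, colc_unused E hz hzq]
    · rw [colc_out hq E' hz, colc_out hq E hz]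
      have d1 : d z = (nbIn E T z).card + (nbIn E Tᶜ z).card := by
        rw [← hE.2 z, card_nbrs_inout E T z]
      have d2 : d z = (nbIn E' T z).card + (nbIn E' Tᶜ z).card := by
        rw [← hE'.2 z, card_nbrs_inout E' T z]
      rw [nbIn_compl_eq h hz] at d1
      omega

/-- the tables of the class of `E0` are tables with the margins of the table of `E0` -/
theorem isTable_tbl {T : Finset (Fin n)} (hT : T.card = 3) {q : Fin n} (hq : q ∈ T)
    {E0 E : Finset (Sym2 (Fin n))} (hE0 : IsRealization d E0) (hE : IsRealization d E)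
    (h : GAgree T E0 E) :
    Bip.IsTable (fun x => (tbl T q E0 x).card) (colc T q E0) (tbl T q E) :=
  ⟨(margins_eq hT hq hE0 hE h).1, (margins_eq hT hq hE0 hE h).2⟩

theorem exists_third {T : Finset (Fin n)} (hT : T.card = 3) {a b : Fin n} (ha : a ∈ T)
    (hb : b ∈ T) (hab : a ≠ b) : ∃ x, x ≠ a ∧ x ≠ b ∧ T = {x, a, b} := by
  obtain ⟨a', b', haa', hab', ha'b', rfl⟩ := exists_triple hT ha
  simp only [Finset.mem_insert, Finset.mem_singleton] at hb
  rcases hb with h1 | h1 | h1
  · exact absurd h1.symm hab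
  · subst h1
    exact ⟨b', hab'.symm, ha'b'.symm, triple_perm a b b'⟩
  · subst h1
    exact ⟨a', haa'.symm, ha'b', Finset.insert_comm a a' {b}⟩

/-- a graph of the class is determined by its table -/
theorem tbl_injective {T : Finset (Fin n)} (hT : T.card = 3) {q : Fin n} (hq : q ∈ T)
    {E E' : Finset (Sym2 (Fin n))} (hE : ∀ p ∈ E, ¬ p.IsDiag) (hE' : ∀ p ∈ E', ¬ p.IsDiag)
    (h : GAgree T E E') (htbl : tbl T q E = tbl T q E') : E = E' := by
  have hcross : ∀ a b : Fin n, a ∈ T → b ∉ T → (s(a, b) ∈ E ↔ s(a, b) ∈ E') := by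
    intro a b ha hb
    have h1 : ∀ F : Finset (Sym2 (Fin n)), (b ∈ tbl T q F a ↔ s(a, b) ∈ F) := by
      intro F
      rw [mem_tbl]
      constructor
      · rintro ⟨-, h1 | h1⟩
        · exact h1.2
        · exact absurd (h1.1 ▸ hq) hb
      · intro hF
        exact ⟨ha, Or.inl ⟨hb, hF⟩⟩
    rw [← h1 E, ← h1 E', htbl]
  have hinner : ∀ a b : Fin n, a ∈ T → b ∈ T → a ≠ b → (s(a, b) ∈ E ↔ s(a, b) ∈ E') := by
    intro a b ha hb hab
    obtain ⟨x, hxa, hxb, hTeq⟩ := exists_third hT ha hb hab
    subst hTeq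
    have hx : x ∈ ({x, a, b} : Finset (Fin n)) := Finset.mem_insert_self _ _
    have h1 : ∀ F : Finset (Sym2 (Fin n)),
        (q ∈ tbl {x, a, b} q F x ↔ ¬ s(a, b) ∈ F) := by
      intro F
      rw [mem_tbl, oppIn_iff hxa hxb hab]
      constructor
      · rintro ⟨-, h1 | h1⟩
        · exact absurd hq h1.1
        · exact h1.2
      · intro hF
        exact ⟨hx, Or.inr ⟨rfl, hF⟩⟩
    have h2 := h1 E
    have h3 := h1 E'
    rw [htbl] at h2
    tauto
  ext p
  induction p using Sym2.ind with
  | _ a b =>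
    by_cases ha : a ∈ T
    · by_cases hb : b ∈ T
      · by_cases hab : a = b
        · subst hab
          exact ⟨fun h1 => absurd (by simp) (hE _ h1), fun h1 => absurd (by simp) (hE' _ h1)⟩
        · exact hinner a b ha hb hab
      · exact hcross a b ha hb
    · by_cases hb : b ∈ T
      · rw [Sym2.eq_swap]
        exact hcross b a hb ha
      · exact h a b ha hb

/-- agreeing off the pair `{a, b}` of the triple means having the same row `e` -/
theorem gagree_pair_iff_row {e a b : Fin n} (hea : e ≠ a) (heb : e ≠ b) (hab : a ≠ b)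
    {q : Fin n} (hq : q ∈ ({e, a, b} : Finset (Fin n))) {E E' : Finset (Sym2 (Fin n))}
    (hE : IsRealization d E) (hE' : IsRealization d E') (h : GAgree {e, a, b} E E') :
    GAgree {a, b} E E' ↔ tbl {e, a, b} q E e = tbl {e, a, b} q E' e := by
  have he : e ∈ ({e, a, b} : Finset (Fin n)) := Finset.mem_insert_self _ _
  constructor
  · intro hg
    have hfro := Gr.Pair.sameFrozen_of_gagree hab hE hE' hg
    have hinner : s(a, b) ∈ E ↔ s(a, b) ∈ E' :=
      hfro a b ⟨fun _ => Finset.mem_insert_of_mem (Finset.mem_singleton_self b),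
        fun _ => Finset.mem_insert_self a {b}⟩
    have hz : ∀ z, z ∉ ({e, a, b} : Finset (Fin n)) → (s(e, z) ∈ E ↔ s(e, z) ∈ E') := by
      intro z hz
      simp only [Finset.mem_insert, Finset.mem_singleton, not_or] at hz
      apply hg e z
      · simp only [Finset.mem_insert, Finset.mem_singleton, not_or]
        exact ⟨hea, heb⟩
      · simp only [Finset.mem_insert, Finset.mem_singleton, not_or]
        exact ⟨hz.2.1, hz.2.2⟩
    ext z
    rw [mem_tbl, mem_tbl, oppIn_iff hea heb hab, oppIn_iff hea heb hab, hinner]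
    constructor
    · rintro ⟨hx, h1 | h1⟩
      · exact ⟨hx, Or.inl ⟨h1.1, (hz z h1.1).1 h1.2⟩⟩
      · exact ⟨hx, Or.inr h1⟩
    · rintro ⟨hx, h1 | h1⟩
      · exact ⟨hx, Or.inl ⟨h1.1, (hz z h1.1).2 h1.2⟩⟩
      · exact ⟨hx, Or.inr h1⟩
  · intro hrow p r hp hr
    simp only [Finset.mem_insert, Finset.mem_singleton, not_or] at hp hr
    have key : ∀ z, z ∉ ({e, a, b} : Finset (Fin n)) → (s(e, z) ∈ E ↔ s(e, z) ∈ E') := by
      intro z hz
      have h1 : ∀ F : Finset (Sym2 (Fin n)), (z ∈ tbl {e, a, b} q F e ↔ s(e, z) ∈ F) := by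
        intro F
        rw [mem_tbl]
        constructor
        · rintro ⟨-, h1 | h1⟩
          · exact h1.2
          · exact absurd (h1.1 ▸ hq) hz
        · intro hF
          exact ⟨he, Or.inl ⟨hz, hF⟩⟩
      rw [← h1 E, ← h1 E', hrow]
    have heq : ∀ t, t ∈ ({e, a, b} : Finset (Fin n)) → t ≠ a → t ≠ b → t = e := by
      intro t ht hta htb
      simp only [Finset.mem_insert, Finset.mem_singleton] at ht
      rcases ht with h1 | h1 | h1
      · exact h1
      · exact absurd h1 hta
      · exact absurd h1 htb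
    by_cases hpT : p ∈ ({e, a, b} : Finset (Fin n))
    · have hpe := heq p hpT hp.1 hp.2
      by_cases hrT : r ∈ ({e, a, b} : Finset (Fin n))
      · have hre := heq r hrT hr.1 hr.2
        rw [hpe, hre]
        exact ⟨fun h1 => absurd h1 (not_mem_nbrs_self hE e),
          fun h1 => absurd h1 (not_mem_nbrs_self hE' e)⟩
      · rw [hpe]
        exact key r hrT
    · by_cases hrT : r ∈ ({e, a, b} : Finset (Fin n))
      · have hre := heq r hrT hr.1 hr.2
        rw [hre, Sym2.eq_swap]
        exact key p hpT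
      · exact h p r hpT hrT

theorem agreeOff_iff_row {e a b : Fin n} (hea : e ≠ a) (heb : e ≠ b) {q : Fin n}
    (E E' : Finset (Sym2 (Fin n))) :
    Bip.AgreeOff {a, b} (tbl {e, a, b} q E) (tbl {e, a, b} q E')
      ↔ tbl {e, a, b} q E e = tbl {e, a, b} q E' e := by
  constructor
  · intro h
    apply h e
    simp only [Finset.mem_insert, Finset.mem_singleton, not_or]
    exact ⟨hea, heb⟩
  · intro h x hx
    simp only [Finset.mem_insert, Finset.mem_singleton, not_or] at hx
    by_cases hxT : x ∈ ({e, a, b} : Finset (Fin n))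
    · have hxe : x = e := by
        simp only [Finset.mem_insert, Finset.mem_singleton] at hxT
        rcases hxT with h1 | h1 | h1
        · exact h1
        · exact absurd h1 hx.1
        · exact absurd h1 hx.2
      rw [hxe]
      exact h
    · rw [tbl_of_notMem hxT, tbl_of_notMem hxT]

/-! ### From a table back to a graph -/

/-- the adjacency relation of the graph with table `y`: outside `T` as in `E0`, between `T`
and its complement as prescribed by the rows, inside `T` as prescribed by the virtual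
column -/
def relT (T : Finset (Fin n)) (q : Fin n) (E0 : Finset (Sym2 (Fin n)))
    (y : Fin n → Finset (Fin n)) (a b : Fin n) : Prop :=
  (a ∉ T ∧ b ∉ T ∧ s(a, b) ∈ E0) ∨ (a ∈ T ∧ b ∉ T ∧ b ∈ y a) ∨ (b ∈ T ∧ a ∉ T ∧ a ∈ y b) ∨
    (a ∈ T ∧ b ∈ T ∧ a ≠ b ∧ ∃ x ∈ T, x ≠ a ∧ x ≠ b ∧ q ∉ y x)

theorem relT_symm (T : Finset (Fin n)) (q : Fin n) (E0 : Finset (Sym2 (Fin n)))
    (y : Fin n → Finset (Fin n)) : Std.Symm (relT T q E0 y) := by
  constructor
  intro a b h
  rcases h with ⟨ha, hb, hE⟩ | h | h | ⟨ha, hb, hab, x, hx, hxa, hxb, hq⟩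
  · refine Or.inl ⟨hb, ha, ?_⟩
    rw [Sym2.eq_swap]
    exact hE
  · exact Or.inr (Or.inr (Or.inl h))
  · exact Or.inr (Or.inl h)
  · exact Or.inr (Or.inr (Or.inr ⟨hb, ha, hab.symm, x, hx, hxb, hxa, hq⟩))

/-- the graph with table `y` -/
noncomputable def ofTbl (T : Finset (Fin n)) (q : Fin n) (E0 : Finset (Sym2 (Fin n)))
    (y : Fin n → Finset (Fin n)) : Finset (Sym2 (Fin n)) :=
  univ.filter (fun p => p ∈ Sym2.fromRel (relT_symm T q E0 y))

section back

variable {T : Finset (Fin n)} {q : Fin n} {E0 : Finset (Sym2 (Fin n))}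
  {y : Fin n → Finset (Fin n)}

theorem mem_ofTbl {a b : Fin n} : s(a, b) ∈ ofTbl T q E0 y ↔ relT T q E0 y a b := by
  simp [ofTbl, Sym2.fromRel_prop]

theorem ofTbl_out {a b : Fin n} (ha : a ∉ T) (hb : b ∉ T) :
    s(a, b) ∈ ofTbl T q E0 y ↔ s(a, b) ∈ E0 := by
  rw [mem_ofTbl]
  constructor
  · rintro (⟨-, -, h⟩ | ⟨h, -, -⟩ | ⟨h, -, -⟩ | ⟨h, -⟩)
    · exact h
    · exact absurd h ha
    · exact absurd h hb
    · exact absurd h ha
  · intro h
    exact Or.inl ⟨ha, hb, h⟩

theorem ofTbl_cross {a b : Fin n} (ha : a ∈ T) (hb : b ∉ T) :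
    s(a, b) ∈ ofTbl T q E0 y ↔ b ∈ y a := by
  rw [mem_ofTbl]
  constructor
  · rintro (⟨h, -, -⟩ | ⟨-, -, h⟩ | ⟨h, -, -⟩ | ⟨-, h, -⟩)
    · exact absurd ha h
    · exact h
    · exact absurd h hb
    · exact absurd h hb
  · intro h
    exact Or.inr (Or.inl ⟨ha, hb, h⟩)

theorem ofTbl_inner {x a b : Fin n} (hxa : x ≠ a) (hxb : x ≠ b) (hab : a ≠ b) :
    s(a, b) ∈ ofTbl {x, a, b} q E0 y ↔ q ∉ y x := by
  have ha : a ∈ ({x, a, b} : Finset (Fin n)) :=
    Finset.mem_insert_of_mem (Finset.mem_insert_self a {b})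
  have hb : b ∈ ({x, a, b} : Finset (Fin n)) :=
    Finset.mem_insert_of_mem (Finset.mem_insert_of_mem (Finset.mem_singleton_self b))
  rw [mem_ofTbl]
  constructor
  · rintro (⟨h, -, -⟩ | ⟨-, h, -⟩ | ⟨-, h, -⟩ | ⟨-, -, -, x', hx', hx'a, hx'b, hq⟩)
    · exact absurd ha h
    · exact absurd hb h
    · exact absurd ha h
    · simp only [Finset.mem_insert, Finset.mem_singleton] at hx'
      rcases hx' with h1 | h1 | h1
      · rw [← h1]
        exact hq
      · exact absurd h1 hx'a
      · exact absurd h1 hx'b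
  · intro h
    exact Or.inr (Or.inr (Or.inr ⟨ha, hb, hab, x, Finset.mem_insert_self _ _, hxa, hxb, h⟩))

theorem loopless_ofTbl (h0 : ∀ p ∈ E0, ¬ p.IsDiag) : ∀ p ∈ ofTbl T q E0 y, ¬ p.IsDiag := by
  intro p hp hdiag
  induction p using Sym2.ind with
  | _ a b =>
    have hab : a = b := by simpa using hdiag
    subst hab
    rw [mem_ofTbl] at hp
    rcases hp with ⟨-, -, h⟩ | ⟨h1, h2, -⟩ | ⟨h1, h2, -⟩ | ⟨-, -, h, -⟩
    · exact h0 _ h (by simp)
    · exact h2 h1
    · exact h2 h1
    · exact h rfl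

theorem gagree_ofTbl : GAgree T E0 (ofTbl T q E0 y) := by
  intro a b ha hb
  exact (ofTbl_out ha hb).symm

theorem y_empty (hy : Bip.IsTable (fun x => (tbl T q E0 x).card) (colc T q E0) y) {x : Fin n}
    (hx : x ∉ T) : y x = ∅ := by
  have h : (y x).card = (tbl T q E0 x).card := hy.1 x
  rw [tbl_of_notMem hx, Finset.card_empty] at h
  exact Finset.card_eq_zero.mp h

theorem y_unused (hy : Bip.IsTable (fun x => (tbl T q E0 x).card) (colc T q E0) y) {z : Fin n}
    (hz : z ∈ T) (hzq : z ≠ q) (x : Fin n) : z ∉ y x := by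
  have h := hy.2 z
  rw [colc_unused E0 hz hzq, Finset.card_eq_zero, Finset.filter_eq_empty_iff] at h
  exact h (Finset.mem_univ x)

theorem deg_out (hq : q ∈ T) (hE0 : IsRealization d E0)
    (hy : Bip.IsTable (fun x => (tbl T q E0 x).card) (colc T q E0) y) {z : Fin n}
    (hz : z ∉ T) : (nbrs (ofTbl T q E0 y) z).card = d z := by
  rw [card_nbrs_inout _ T z,
    ← nbIn_compl_eq (gagree_ofTbl (T := T) (q := q) (E0 := E0) (y := y)) hz]
  have h1 : (nbIn (ofTbl T q E0 y) T z).card = (nbIn E0 T z).card := by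
    rw [← colc_out hq E0 hz, ← hy.2 z]
    unfold nbIn
    congr 1
    ext x
    simp only [Finset.mem_filter, Finset.mem_univ, true_and]
    constructor
    · rintro ⟨hx, h⟩
      rw [Sym2.eq_swap, ofTbl_cross hx hz] at h
      exact h
    · intro h
      have hx : x ∈ T := by
        by_contra hx
        rw [y_empty hy hx] at h
        exact absurd h (Finset.notMem_empty z)
      refine ⟨hx, ?_⟩
      rw [Sym2.eq_swap, ofTbl_cross hx hz]
      exact h
  rw [h1, ← hE0.2 z, card_nbrs_inout E0 T z]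

theorem deg_in (hT : T.card = 3) (hq : q ∈ T) (hE0 : IsRealization d E0)
    (hy : Bip.IsTable (fun x => (tbl T q E0 x).card) (colc T q E0) y) {x : Fin n}
    (hx : x ∈ T) : (nbrs (ofTbl T q E0 y) x).card = d x := by
  obtain ⟨a, b, hxa, hxb, hab, rfl⟩ := exists_triple hT hx
  have hloop := loopless_ofTbl (T := {x, a, b}) (q := q) (y := y) hE0.1
  rw [card_nbrs_inout _ {x, a, b} x, nbIn_triple hxa hxb hab hloop]
  have i1 : s(x, a) ∈ ofTbl {x, a, b} q E0 y ↔ q ∉ y b := by
    rw [triple_perm x a b]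
    exact ofTbl_inner hxb.symm hab.symm hxa
  have i2 : s(x, b) ∈ ofTbl {x, a, b} q E0 y ↔ q ∉ y a := by
    rw [Finset.insert_comm x a {b}]
    exact ofTbl_inner hxa.symm hab hxb
  have o1 : nbIn (ofTbl {x, a, b} q E0 y) ({x, a, b} : Finset (Fin n))ᶜ x
      = (y x).filter (fun z => ¬ z ∈ ({x, a, b} : Finset (Fin n))) := by
    ext z
    simp only [nbIn, Finset.mem_filter, Finset.mem_compl]
    constructor
    · rintro ⟨hz, h⟩
      exact ⟨(ofTbl_cross hx hz).mp h, hz⟩
    · rintro ⟨h, hz⟩
      exact ⟨hz, (ofTbl_cross hx hz).mpr h⟩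
  have o2 : ((y x).filter (fun z => ¬ z ∈ ({x, a, b} : Finset (Fin n)))).card
      + (if q ∈ y x then 1 else 0) = (y x).card := by
    have hsplit := Finset.card_filter_add_card_filter_not (s := y x)
      (fun z => z ∈ ({x, a, b} : Finset (Fin n)))
    have hin : (y x).filter (fun z => z ∈ ({x, a, b} : Finset (Fin n)))
        = if q ∈ y x then {q} else ∅ := by
      ext z
      by_cases hqy : q ∈ y x
      · rw [if_pos hqy, Finset.mem_filter, Finset.mem_singleton]
        constructor
        · rintro ⟨hz, hzT⟩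
          by_contra hzq
          exact y_unused hy hzT hzq x hz
        · intro hzq
          rw [hzq]
          exact ⟨hqy, hq⟩
      · rw [if_neg hqy, Finset.mem_filter]
        constructor
        · rintro ⟨hz, hzT⟩
          by_cases hzq : z = q
          · rw [hzq] at hz
            exact absurd hz hqy
          · exact absurd hz (y_unused hy hzT hzq x)
        · intro h
          exact absurd h (Finset.notMem_empty z)
    rw [hin] at hsplit
    by_cases hqy : q ∈ y x
    · rw [if_pos hqy] at hsplit ⊢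
      rw [Finset.card_singleton] at hsplit
      omega
    · rw [if_neg hqy] at hsplit ⊢
      rw [Finset.card_empty] at hsplit
      omega
  have c1 : (if q ∈ y x then 1 else 0) + (if q ∈ y a then 1 else 0)
      + (if q ∈ y b then 1 else 0) + kcount {x, a, b} E0 = 3 := by
    have h : (univ.filter (fun x' => q ∈ y x')).card = colc {x, a, b} q E0 q := hy.2 q
    have h2 := colc_virtual hT hq E0
    have h3 : (univ.filter (fun x' => q ∈ y x')).card
        = (if q ∈ y x then 1 else 0) + (if q ∈ y a then 1 else 0)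
          + (if q ∈ y b then 1 else 0) := by
      have e : univ.filter (fun x' => q ∈ y x')
          = ({x, a, b} : Finset (Fin n)).filter (fun x' => q ∈ y x') := by
        ext x'
        simp only [Finset.mem_filter, Finset.mem_univ, true_and]
        constructor
        · intro h
          refine ⟨?_, h⟩
          by_contra hx'
          rw [y_empty hy hx'] at h
          exact absurd h (Finset.notMem_empty q)
        · exact fun h => h.2
      rw [e, Finset.card_filter, sum_triple hxa hxb hab]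
    omega
  have r1 : (y x).card = (tbl {x, a, b} q E0 x).card := hy.1 x
  have r2 := card_tbl_row hT hq hE0 hx
  rw [o1]
  by_cases h1 : q ∈ y x <;> by_cases h2 : q ∈ y a <;> by_cases h3 : q ∈ y b <;>
    simp only [i1, i2, h1, h2, h3, not_true_eq_false, not_false_eq_true, if_true, if_false]
      at c1 o2 ⊢ <;> omega

theorem tbl_ofTbl (hT : T.card = 3) (hq : q ∈ T)
    (hy : Bip.IsTable (fun x => (tbl T q E0 x).card) (colc T q E0) y) :
    tbl T q (ofTbl T q E0 y) = y := by
  funext x
  by_cases hx : x ∈ T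
  · obtain ⟨a, b, hxa, hxb, hab, rfl⟩ := exists_triple hT hx
    ext z
    rw [mem_tbl, oppIn_iff hxa hxb hab, ofTbl_inner hxa hxb hab]
    constructor
    · rintro ⟨-, h | h⟩
      · exact (ofTbl_cross hx h.1).mp h.2
      · rw [h.1]
        exact not_not.mp h.2
    · intro h
      refine ⟨hx, ?_⟩
      by_cases hz : z ∈ ({x, a, b} : Finset (Fin n))
      · have hzq : z = q := by
          by_contra hzq
          exact y_unused hy hz hzq x h
        refine Or.inr ⟨hzq, ?_⟩
        rw [← hzq]
        exact not_not.mpr h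
      · exact Or.inl ⟨hz, (ofTbl_cross hx hz).mpr h⟩
  · rw [tbl_of_notMem hx, y_empty hy hx]

/-- every table with the margins of the table of `E0` is the table of a graph of the class -/
theorem exists_graph_of_table (hT : T.card = 3) (hq : q ∈ T) (hE0 : IsRealization d E0)
    (hy : Bip.IsTable (fun x => (tbl T q E0 x).card) (colc T q E0) y) :
    ∃ E, IsRealization d E ∧ GAgree T E0 E ∧ tbl T q E = y := by
  refine ⟨ofTbl T q E0 y, ⟨loopless_ofTbl hE0.1, fun v => ?_⟩, gagree_ofTbl, tbl_ofTbl hT hq hy⟩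
  by_cases hv : v ∈ T
  · exact deg_in hT hq hE0 hy hv
  · exact deg_out hq hE0 hy hv

end back

/-- agreeing off a pair of the triple, in terms of the tables -/
theorem rel_iff {e a b : Fin n} (hea : e ≠ a) (heb : e ≠ b) (hab : a ≠ b) {q : Fin n}
    (hq : q ∈ ({e, a, b} : Finset (Fin n))) {E E' : Finset (Sym2 (Fin n))}
    (hE : IsRealization d E) (hE' : IsRealization d E') (h : GAgree {e, a, b} E E') :
    GAgree {a, b} E E' ↔ Bip.AgreeOff {a, b} (tbl {e, a, b} q E) (tbl {e, a, b} q E') :=
  (gagree_pair_iff_row hea heb hab hq hE hE' h).trans (agreeOff_iff_row hea heb E E').symm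

/-- the encoding map: the table of a graph of the class (and a default value elsewhere) -/
noncomputable def phi (T : Finset (Fin n)) (q : Fin n) (G0 : Omega d)
    (hself : Bip.IsTable (fun x => (tbl T q G0.1 x).card) (colc T q G0.1) (tbl T q G0.1))
    (G : Omega d) : Bip.Tab (fun x => (tbl T q G0.1 x).card) (colc T q G0.1) :=
  if h : Bip.IsTable (fun x => (tbl T q G0.1 x).card) (colc T q G0.1) (tbl T q G.1) then
    ⟨tbl T q G.1, h⟩
  else ⟨tbl T q G0.1, hself⟩

theorem phi_val {T : Finset (Fin n)} (hT : T.card = 3) {q : Fin n} (hq : q ∈ T) (G0 : Omega d)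
    (hself : Bip.IsTable (fun x => (tbl T q G0.1 x).card) (colc T q G0.1) (tbl T q G0.1))
    {G : Omega d} (hG : G ∈ gcls T G0) : (phi T q G0 hself G).1 = tbl T q G.1 := by
  have h := isTable_tbl hT hq G0.2 G.2 ((mem_gcls T G0 G).mp hG)
  unfold phi
  rw [dif_pos h]

end Vale.Agent.Lib.P335.H15.Triple

namespace Vale.Agent.Lib.P335.H15

open Finset
open Classical
open Vale.Agent.Lib.P335 Vale.Agent.Lib.P335.Gr

variable {n : ℕ} {d : Fin n → ℕ}

/-- **The three-pair inequality for graphs** (module G2).  For three distinct vertices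
`u, v, w` and every function `f` on the graphs with degree sequence `d`, the class averages
over the three pairs and over the triple satisfy
`⟨f, Ξ_vw f⟩ + ⟨f, Ξ_uw f⟩ + ⟨f, Ξ_uv f⟩ ≤ 2 ⟨f, f⟩ + ⟨f, Ξ_uvw f⟩`. -/
theorem graph_three_row (u v w : Fin n) (huv : u ≠ v) (huw : u ≠ w) (hvw : v ≠ w)
    (f : Omega d → ℝ) :
    Bip.ip f (gavg {v, w} f) + Bip.ip f (gavg {u, w} f) + Bip.ip f (gavg {u, v} f)
      ≤ 2 * Bip.ip f f + Bip.ip f (gavg {u, v, w} f) := by
  apply H2.globalize {u, v, w} {v, w} {u, w} {u, v} f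
  intro G0
  have hT : ({u, v, w} : Finset (Fin n)).card = 3 :=
    Finset.card_eq_three.mpr ⟨u, v, w, huv, huw, hvw, rfl⟩
  have hq : u ∈ ({u, v, w} : Finset (Fin n)) := Finset.mem_insert_self _ _
  have hself := Triple.isTable_tbl hT hq G0.2 G0.2 (GAgree.refl {u, v, w} G0.1)
  have hval : ∀ G ∈ gcls {u, v, w} G0,
      (Triple.phi {u, v, w} u G0 hself G).1 = Triple.tbl {u, v, w} u G.1 :=
    fun G hG => Triple.phi_val hT hq G0 hself hG
  have hag : ∀ G ∈ gcls {u, v, w} G0, ∀ G' ∈ gcls {u, v, w} G0,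
      GAgree {u, v, w} G.1 G'.1 := by
    intro G hG G' hG'
    exact ((mem_gcls _ G0 G).mp hG).symm.trans ((mem_gcls _ G0 G').mp hG')
  have e2 : ({v, u, w} : Finset (Fin n)) = {u, v, w} := Finset.insert_comm v u {w}
  have e3 : ({w, u, v} : Finset (Fin n)) = {u, v, w} := (Triple.triple_perm u v w).symm
  refine H2.class_transfer {u, v, w} {v, w} {u, w} {u, v} ?_ ?_ ?_ G0 u v w
    (Triple.phi {u, v, w} u G0 hself) ?_ ?_ ?_ ?_ ?_ ?_
    (fun F hF => Bip.three_row u v w huv huw hvw F hF) f
  · intro z hz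
    simp only [Finset.mem_insert, Finset.mem_singleton] at hz ⊢
    tauto
  · intro z hz
    simp only [Finset.mem_insert, Finset.mem_singleton] at hz ⊢
    tauto
  · intro z hz
    simp only [Finset.mem_insert, Finset.mem_singleton] at hz ⊢
    tauto
  · intro G hG G' hG' hphi
    have h1 : Triple.tbl {u, v, w} u G.1 = Triple.tbl {u, v, w} u G'.1 := by
      rw [← hval G hG, ← hval G' hG', hphi]
    exact Subtype.ext (Triple.tbl_injective hT hq G.2.1 G'.2.1 (hag G hG G' hG') h1)
  · intro y
    obtain ⟨E, hE, hagree, htbl⟩ := Triple.exists_graph_of_table hT hq G0.2 y.2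
    have hmem : (⟨E, hE⟩ : Omega d) ∈ gcls {u, v, w} G0 := (mem_gcls _ G0 _).mpr hagree
    refine ⟨⟨E, hE⟩, hmem, ?_⟩
    apply Subtype.ext
    rw [hval _ hmem]
    exact htbl
  · intro G hG G' hG'
    rw [hval G hG, hval G' hG']
    exact Triple.rel_iff huv huw hvw hq G.2 G'.2 (hag G hG G' hG')
  · intro G hG G' hG'
    rw [hval G hG, hval G' hG']
    have key := Triple.rel_iff (e := v) (a := u) (b := w) huv.symm hvw huw (q := u)
      (Finset.mem_insert_of_mem (Finset.mem_insert_self u {w})) G.2 G'.2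
      (by rw [e2]; exact hag G hG G' hG')
    rw [e2] at key
    exact key
  · intro G hG G' hG'
    rw [hval G hG, hval G' hG']
    have key := Triple.rel_iff (e := w) (a := u) (b := v) huw.symm hvw.symm huv (q := u)
      (Finset.mem_insert_of_mem (Finset.mem_insert_self u {v})) G.2 G'.2
      (by rw [e3]; exact hag G hG G' hG')
    rw [e3] at key
    exact key
  · intro x y i hi
    rw [Triple.y_empty x.2 hi, Triple.y_empty y.2 hi]

end Vale.Agent.Lib.P335.H15
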